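import Mathlib
import Crest.Prelude.Def_AsymptoticConvexity

set_option autoImplicit false

open Crest.AnalysisR Filter Topology

namespace Crest.Agent.R125

section general

variable {X : Type} [i1 : NormedAddCommGroup X] [i2 : NormedSpace ℝ X]

/-- closed finite-codimensional subspaces -/
def Cof (F : Set X) : Prop :=
  ∃ S : Submodule ℝ X, (S : Set X) = F ∧ IsClosed F ∧ FiniteDimensional ℝ (X ⧸ S)

theorem isCof_iff [i3 : CompleteSpace X] (F : Set X) :
    (RealBanach.mk X i1 i2 i3).IsCof F ↔ Cof F := Iff.rfl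

theorem cof_ker {V : Type*} [NormedAddCommGroup V] [NormedSpace ℝ V] [FiniteDimensional ℝ V]
    (q : X →L[ℝ] V) : Cof {y : X | q y = 0} := by
  refine ⟨LinearMap.ker (q : X →ₗ[ℝ] V), ?_, ?_, ?_⟩
  · ext y; simp
  · exact isClosed_eq q.continuous continuous_const
  · exact LinearEquiv.finiteDimensional (LinearMap.quotKerEquivRange (q : X →ₗ[ℝ] V)).symm

theorem cof_forall {ι : Type*} [Finite ι] (φ : ι → X →L[ℝ] ℝ) :
    Cof {y : X | ∀ i, φ i y = 0} := by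
  classical
  have := Fintype.ofFinite ι
  have := cof_ker (ContinuousLinearMap.pi φ : X →L[ℝ] (ι → ℝ))
  convert this using 2 with y
  simp [funext_iff]

theorem Cof.zero_mem {F : Set X} (h : Cof F) : (0 : X) ∈ F := by
  obtain ⟨S, rfl, -, -⟩ := h; exact S.zero_mem

theorem Cof.smul_mem {F : Set X} (h : Cof F) (a : ℝ) {y : X} (hy : y ∈ F) : a • y ∈ F := by
  obtain ⟨S, rfl, -, -⟩ := h; exact S.smul_mem a hy

theorem Cof.exists_euclid {F : Set X} (h : Cof F) :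
    ∃ (n : ℕ) (q : X →L[ℝ] EuclideanSpace ℝ (Fin n)) (C : ℝ), 0 < C ∧
      ∀ w : X, ∃ y ∈ F, ‖w - y‖ ≤ C * ‖q w‖ := by
  obtain ⟨S, rfl, hcl, hfd⟩ := h
  have : IsClosed (S : Set X) := hcl
  let e := toEuclidean (E := X ⧸ S)
  let π : X →L[ℝ] X ⧸ S := ⟨S.mkQ, continuous_quot_mk⟩
  obtain ⟨σ, hσ⟩ := S.mkQ.exists_rightInverse_of_surjective (Submodule.range_mkQ S)
  let τ : EuclideanSpace ℝ (Fin (Module.finrank ℝ (X ⧸ S))) →L[ℝ] X :=
    LinearMap.toContinuousLinearMap (σ ∘ₗ e.symm.toLinearEquiv.toLinearMap)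
  refine ⟨_, e.toContinuousLinearMap ∘L π, ‖τ‖ + 1, by positivity, fun w => ?_⟩
  refine ⟨w - τ (e (π w)), ?_, ?_⟩
  · have h1 : τ (e (π w)) = σ (S.mkQ w) := by
      simp [τ, π]
    rw [h1]
    have h2 : S.mkQ (σ (S.mkQ w)) = S.mkQ w := by
      have := LinearMap.congr_fun hσ (S.mkQ w)
      simpa using this
    have : S.mkQ (w - σ (S.mkQ w)) = 0 := by rw [map_sub, h2, sub_self]
    rw [Submodule.mkQ_apply, Submodule.Quotient.mk_eq_zero] at this
    exact this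
  · have : w - (w - τ (e (π w))) = τ (e (π w)) := by abel
    rw [this]
    calc ‖τ (e (π w))‖ ≤ ‖τ‖ * ‖e (π w)‖ := τ.le_opNorm _
      _ ≤ (‖τ‖ + 1) * ‖e (π w)‖ := by gcongr; linarith
      _ = _ := by simp

/-- A sequence with an upper `ℓ²` estimate is weakly null. -/
theorem tendsto_zero_of_upper_l2 (u : ℕ → X) (K : ℝ)
    (hu : ∀ (A : Finset ℕ) (a : ℕ → ℝ), ‖∑ n ∈ A, a n • u n‖ ≤ K * √(∑ n ∈ A, a n ^ 2))
    (φ : X →L[ℝ] ℝ) : Tendsto (fun n => φ (u n)) atTop (𝓝 0) := by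
  have hb : ∀ A : Finset ℕ, ∑ n ∈ A, (φ (u n)) ^ 2 ≤ (‖φ‖ * K) ^ 2 := by
    intro A
    set T := ∑ n ∈ A, (φ (u n)) ^ 2 with hT
    have hT0 : 0 ≤ T := Finset.sum_nonneg fun _ _ => sq_nonneg _
    have h1 : φ (∑ n ∈ A, φ (u n) • u n) = T := by
      simp [hT, map_sum, sq]
    have h2 : T ≤ ‖φ‖ * K * √T := by
      calc T = φ (∑ n ∈ A, φ (u n) • u n) := h1.symm
        _ ≤ ‖φ (∑ n ∈ A, φ (u n) • u n)‖ := Real.le_norm_self _
        _ ≤ ‖φ‖ * ‖∑ n ∈ A, φ (u n) • u n‖ := φ.le_opNorm _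
        _ ≤ ‖φ‖ * (K * √T) := by gcongr; exact hu A _
        _ = _ := by ring
    have h3 : √T * √T = T := Real.mul_self_sqrt hT0
    have h4 : 0 ≤ √T := Real.sqrt_nonneg _
    nlinarith [sq_nonneg (‖φ‖ * K - √T)]
  have hs : Summable fun n => (φ (u n)) ^ 2 :=
    summable_of_sum_le (fun _ => sq_nonneg _) hb
  have h0 := hs.tendsto_atTop_zero
  have h1 : Tendsto (fun n => √((φ (u n)) ^ 2)) atTop (𝓝 0) := by
    simpa using h0.sqrt
  rw [tendsto_zero_iff_norm_tendsto_zero]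
  simpa [Real.sqrt_sq_eq_abs] using h1

theorem Cof.exists_near_of_weak {F : Set X} (h : Cof F) (u : ℕ → X)
    (hu : ∀ φ : X →L[ℝ] ℝ, Tendsto (fun n => φ (u n)) atTop (𝓝 0)) {ε : ℝ} (hε : 0 < ε) :
    ∃ n, ∃ y ∈ F, ‖u n - y‖ ≤ ε := by
  obtain ⟨m, q, C, hC, hq⟩ := h.exists_euclid
  have h1 : Tendsto (fun n => q (u n)) atTop (𝓝 0) := by
    have h2 : Tendsto (fun n => (EuclideanSpace.equiv (Fin m) ℝ) (q (u n))) atTop (𝓝 0) := by
      rw [tendsto_pi_nhds]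
      intro i
      exact hu ((EuclideanSpace.proj i : EuclideanSpace ℝ (Fin m) →L[ℝ] ℝ) ∘L q)
    have h3 := ((EuclideanSpace.equiv (Fin m) ℝ).symm.continuous.tendsto 0).comp h2
    simpa [Function.comp_def] using h3
  rw [tendsto_zero_iff_norm_tendsto_zero] at h1
  have h4 : ∀ᶠ n in atTop, ‖q (u n)‖ < ε / C := h1.eventually (gt_mem_nhds (by positivity))
  obtain ⟨n, hn⟩ := h4.exists
  obtain ⟨y, hyF, hy⟩ := hq (u n)
  refine ⟨n, y, hyF, hy.trans ?_⟩
  rw [lt_div_iff₀ hC] at hn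
  linarith

theorem Cof.exists_near_of_upper_l2 {F : Set X} (h : Cof F) (u : ℕ → X) (K : ℝ)
    (hu : ∀ (A : Finset ℕ) (a : ℕ → ℝ), ‖∑ n ∈ A, a n • u n‖ ≤ K * √(∑ n ∈ A, a n ^ 2))
    {ε : ℝ} (hε : 0 < ε) : ∃ n, ∃ y ∈ F, ‖u n - y‖ ≤ ε :=
  h.exists_near_of_weak u (tendsto_zero_of_upper_l2 u K hu) hε

/-- two terms of a bounded sequence whose difference is close to `F`. -/
theorem Cof.exists_pair_near {F : Set X} (h : Cof F) (u : ℕ → X) (R : ℝ) (hu : ∀ n, ‖u n‖ ≤ R)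
    {ε : ℝ} (hε : 0 < ε) : ∃ n m, n ≠ m ∧ ∃ y ∈ F, ‖u n - u m - y‖ ≤ ε := by
  obtain ⟨k, q, C, hC, hq⟩ := h.exists_euclid
  have hb : ∀ n, q (u n) ∈ Metric.closedBall (0 : EuclideanSpace ℝ (Fin k)) (‖q‖ * R) := by
    intro n
    rw [mem_closedBall_zero_iff]
    exact (q.le_opNorm _).trans (by gcongr; exact hu n)
  obtain ⟨w, -, ψ, hψ, hlim⟩ := (isCompact_closedBall _ _).tendsto_subseq hb
  have hc := hlim.cauchySeq
  rw [Metric.cauchySeq_iff] at hc
  obtain ⟨N, hN⟩ := hc (ε / C) (by positivity)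
  have h1 := hN N le_rfl (N + 1) (Nat.le_succ _)
  refine ⟨ψ N, ψ (N + 1), (hψ (Nat.lt_succ_self N)).ne, ?_⟩
  obtain ⟨y, hyF, hy⟩ := hq (u (ψ N) - u (ψ (N + 1)))
  refine ⟨y, hyF, hy.trans ?_⟩
  rw [dist_eq_norm] at h1
  simp only [Function.comp] at h1
  rw [map_sub]
  rw [lt_div_iff₀ hC] at h1
  linarith

theorem cof_bot [FiniteDimensional ℝ X] : Cof ({0} : Set X) := by
  refine ⟨⊥, by simp, isClosed_singleton, inferInstance⟩

/-- The abstract obstruction to asymptotically uniformly convex renormings. -/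
theorem not_isAUC [i3 : CompleteSpace X] (δ C : ℝ) (hδ : 0 < δ)
    (hA : ∀ h : ℕ, ∃ A : ℕ → Set X, (A 0).Nonempty ∧ (∀ j, ∀ x ∈ A j, ‖x‖ ≤ C) ∧
      ∀ j < h, ∀ x ∈ A j, ∀ F : Set X, Cof F → ∀ ε : ℝ, 0 < ε →
        ∃ y ∈ F, δ ≤ ‖y‖ ∧ ∃ x' ∈ A (j + 1), ‖x + y - x'‖ ≤ ε)
    (N : X → ℝ) (hN : (RealBanach.mk X i1 i2 i3).IsEquivNorm N) :
    ¬ (RealBanach.mk X i1 i2 i3).IsAUC N := by
  intro hauc
  obtain ⟨hadd, hsmul, a, b, ha, hab⟩ := hN
  change ∀ x y : X, N (x + y) ≤ N x + N y at hadd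
  change ∀ (a : ℝ) (x : X), N (a • x) = |a| * N x at hsmul
  change ∀ x : X, a * ‖x‖ ≤ N x ∧ N x ≤ b * ‖x‖ at hab
  change ∀ t : ℝ, 0 < t → ∃ c : ℝ, 0 < c ∧ ∀ x : X, N x = 1 → ∃ F : Set X, Cof F ∧
    ∀ y ∈ F, N y = 1 → c ≤ N (x + t • y) - 1 at hauc
  have hN0 : ∀ x, 0 ≤ N x := fun x => le_trans (by positivity) (hab x).1
  -- bounds
  set R : ℝ := |b| * |C| + 1 with hR
  have hRpos : 0 < R := by positivity
  have hNR : ∀ x : X, ‖x‖ ≤ C → N x ≤ R := by
    intro x hx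
    calc N x ≤ b * ‖x‖ := (hab x).2
      _ ≤ |b| * ‖x‖ := by gcongr; exact le_abs_self b
      _ ≤ |b| * |C| := by gcongr; exact hx.trans (le_abs_self C)
      _ ≤ R := by linarith
  set d : ℝ := a * δ with hd
  have hdpos : 0 < d := by positivity
  set t : ℝ := d / R with ht
  have htpos : 0 < t := by positivity
  obtain ⟨c, hc, hauc'⟩ := hauc t htpos
  set γ : ℝ := min d (c * R) with hγ
  have hγpos : 0 < γ := lt_min hdpos (by positivity)
  -- one step gain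
  have step : ∀ x : X, N x ≤ R → ∃ F : Set X, Cof F ∧ ∀ y ∈ F, δ ≤ ‖y‖ → N x + γ ≤ N (x + y) := by
    intro x hxR
    by_cases hx0 : N x = 0
    · refine ⟨Set.univ, ⟨⊤, by simp, isClosed_univ, inferInstance⟩, fun y _ hy => ?_⟩
      have hx : x = 0 := by
        have := (hab x).1
        rw [hx0] at this
        have h2 : ‖x‖ ≤ 0 := by
          by_contra hcon
          push Not at hcon
          have := mul_pos ha hcon
          linarith
        exact norm_le_zero_iff.mp h2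
      rw [hx0, hx, zero_add, zero_add]
      calc γ ≤ d := min_le_left _ _
        _ ≤ a * ‖y‖ := by rw [hd]; gcongr
        _ ≤ N y := (hab y).1
    · have hr : 0 < N x := lt_of_le_of_ne (hN0 x) (Ne.symm hx0)
      set r := N x with hrdef
      have hx1 : N (r⁻¹ • x) = 1 := by
        rw [hsmul, abs_of_pos (inv_pos.mpr hr), ← hrdef, inv_mul_cancel₀ hr.ne']
      obtain ⟨F, hF, hFy⟩ := hauc' _ hx1
      refine ⟨F, hF, fun y hyF hy => ?_⟩
      have hs : d ≤ N y := by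
        calc d ≤ a * ‖y‖ := by rw [hd]; gcongr
          _ ≤ N y := (hab y).1
      set s := N y with hsdef
      have hspos : 0 < s := lt_of_lt_of_le hdpos hs
      have hy1 : N (s⁻¹ • y) = 1 := by
        rw [hsmul, abs_of_pos (inv_pos.mpr hspos), ← hsdef, inv_mul_cancel₀ hspos.ne']
      have h1 := hFy _ (hF.smul_mem s⁻¹ hyF) hy1
      -- r • (r⁻¹ x + t s⁻¹ y) = (1 - θ) x + θ (x + y), θ = r t / s
      set θ : ℝ := r * t / s with hθ
      have hθpos : 0 < θ := by positivity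
      have hθ1 : θ ≤ 1 := by
        rw [hθ, div_le_one hspos, ht]
        calc r * (d / R) ≤ R * (d / R) := by gcongr
          _ = d := by field_simp
          _ ≤ s := hs
      have heq : r • (r⁻¹ • x + t • s⁻¹ • y) = (1 - θ) • x + θ • (x + y) := by
        rw [smul_add, smul_smul, mul_inv_cancel₀ hr.ne', one_smul, smul_smul, smul_smul, smul_add,
          sub_smul, one_smul, hθ]
        rw [div_eq_mul_inv]
        abel
      have h2 : r * N (r⁻¹ • x + t • s⁻¹ • y) ≤ (1 - θ) * r + θ * N (x + y) := by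
        calc r * N (r⁻¹ • x + t • s⁻¹ • y) = N (r • (r⁻¹ • x + t • s⁻¹ • y)) := by
              rw [hsmul, abs_of_pos hr]
          _ ≤ N ((1 - θ) • x) + N (θ • (x + y)) := by rw [heq]; exact hadd _ _
          _ = _ := by
              rw [hsmul, hsmul, abs_of_nonneg (by linarith), abs_of_pos hθpos]
      have h3 : r * c ≤ θ * (N (x + y) - r) := by nlinarith
      have h4 : θ * (c * R) ≤ r * c := by
        have : θ * R ≤ r := by
          rw [hθ, ht]
          calc r * (d / R) / s * R = r * (d / s) := by field_simp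
            _ ≤ r * 1 := by gcongr; rw [div_le_one hspos]; exact hs
            _ = r := mul_one r
        nlinarith
      have h5 : c * R ≤ N (x + y) - r := le_of_mul_le_mul_left (h4.trans h3) hθpos
      have : γ ≤ c * R := min_le_right _ _
      linarith
  obtain ⟨h, hh⟩ := exists_nat_gt (R / (γ / 2))
  obtain ⟨A, ⟨x0, hx0⟩, hAb, hAs⟩ := hA h
  have main : ∀ j ≤ h, ∃ x ∈ A j, j * (γ / 2) ≤ N x := by
    intro j
    induction j with
    | zero => intro _; exact ⟨x0, hx0, by simpa using hN0 x0⟩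
    | succ j ih =>
      intro hj
      obtain ⟨x, hxA, hx⟩ := ih (by omega)
      obtain ⟨F, hF, hFy⟩ := step x (hNR x (hAb j x hxA))
      obtain ⟨y, hyF, hy, x', hx'A, hx'⟩ := hAs j (by omega) x hxA F hF (γ / 2 / (|b| + 1))
        (by positivity)
      refine ⟨x', hx'A, ?_⟩
      have h1 := hFy y hyF hy
      have h2 : N (x + y) ≤ N x' + N (x + y - x') := by
        have := hadd x' (x + y - x')
        simpa using this
      have h3 : N (x + y - x') ≤ γ / 2 := by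
        calc N (x + y - x') ≤ b * ‖x + y - x'‖ := (hab _).2
          _ ≤ (|b| + 1) * ‖x + y - x'‖ := by gcongr; linarith [le_abs_self b]
          _ ≤ (|b| + 1) * (γ / 2 / (|b| + 1)) := by gcongr
          _ = γ / 2 := by field_simp
      push_cast
      linarith
  obtain ⟨x, hxA, hx⟩ := main h le_rfl
  have := hNR x (hAb h x hxA)
  rw [div_lt_iff₀ (by positivity)] at hh
  linarith

/-- Tree form of the obstruction. -/
theorem not_isAUC_of_tree [i3 : CompleteSpace X] (δ C K : ℝ) (hδ : 0 < δ)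
    (hT : ∀ h : ℕ, ∃ P : List ℕ → X, (∀ s, s.length ≤ h → ‖P s‖ ≤ C) ∧
      (∀ s n, s.length < h → δ ≤ ‖P (n :: s) - P s‖) ∧
      ∀ s, s.length < h → ∀ (A : Finset ℕ) (a : ℕ → ℝ),
        ‖∑ n ∈ A, a n • (P (n :: s) - P s)‖ ≤ K * √(∑ n ∈ A, a n ^ 2))
    (N : X → ℝ) (hN : (RealBanach.mk X i1 i2 i3).IsEquivNorm N) :
    ¬ (RealBanach.mk X i1 i2 i3).IsAUC N := by
  refine not_isAUC (δ / 2) C (by positivity) (fun h => ?_) N hN
  obtain ⟨P, hPb, hPδ, hPl⟩ := hT h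
  refine ⟨fun j => {x | ∃ s : List ℕ, s.length = j ∧ j ≤ h ∧ x = P s}, ⟨P [], [], rfl, by omega, rfl⟩,
    ?_, ?_⟩
  · rintro j x ⟨s, hs, hj, rfl⟩
    exact hPb s (by omega)
  · rintro j hj x ⟨s, hs, -, rfl⟩ F hF ε hε
    obtain ⟨n, y, hyF, hy⟩ := hF.exists_near_of_upper_l2 (fun n => P (n :: s) - P s) K
      (hPl s (by omega)) (lt_min hε (half_pos hδ))
    refine ⟨y, hyF, ?_, P (n :: s), ⟨n :: s, by simp [hs], by omega, rfl⟩, ?_⟩
    · have h1 := hPδ s n (by omega)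
      have h2 : ‖P (n :: s) - P s‖ ≤ ‖P (n :: s) - P s - y‖ + ‖y‖ := by
        simpa using norm_add_le (P (n :: s) - P s - y) y
      have h3 := min_le_right ε (δ / 2)
      linarith
    · have : P s + y - P (n :: s) = -(P (n :: s) - P s - y) := by abel
      rw [this, norm_neg]
      exact hy.trans (min_le_left _ _)

theorem not_finiteDimensional_of_upper_l2 (u : ℕ → X) (δ K : ℝ) (hδ : 0 < δ)
    (hd : ∀ n, δ ≤ ‖u n‖)
    (hu : ∀ (A : Finset ℕ) (a : ℕ → ℝ), ‖∑ n ∈ A, a n • u n‖ ≤ K * √(∑ n ∈ A, a n ^ 2)) :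
    ¬ FiniteDimensional ℝ X := by
  intro hfd
  obtain ⟨n, y, hy, hn⟩ := (cof_bot (X := X)).exists_near_of_upper_l2 u K hu (half_pos hδ)
  rw [Set.mem_singleton_iff] at hy
  subst hy
  have := hd n
  rw [sub_zero] at hn
  linarith

end general

end Crest.Agent.R125
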