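import Mathlib
import Crest.Prelude.Def_DaugavetL1
import Crest.Agent.R125.Basic

set_option autoImplicit false

open Crest.AnalysisR Filter Topology MeasureTheory

namespace Crest.Agent.R125

section daug

variable {X : Type} [i1 : NormedAddCommGroup X] [i2 : NormedSpace ℝ X]

theorem daug_slice_one (hD : L1Subspace.HasDaugavetProperty X) (u : X) (hu : u ≠ 0)
    (φ : X →L[ℝ] ℝ) (hφ : ‖φ‖ = 1) {δ : ℝ} (hδ : 0 < δ) :
    ∃ z : X, ‖z‖ ≤ 1 ∧ 1 - δ ≤ φ z ∧ ‖u‖ + 1 - δ ≤ ‖u + z‖ := by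
  have hupos : 0 < ‖u‖ := norm_pos_iff.mpr hu
  set η : ℝ := min (δ / 2) (δ * ‖u‖) with hη
  have hηpos : 0 < η := lt_min (half_pos hδ) (by positivity)
  have h1 := hD φ u
  rw [ContinuousLinearMap.norm_smulRight_apply, hφ, one_mul] at h1
  obtain ⟨z, hz1, hz2⟩ := (ContinuousLinearMap.id ℝ X + φ.smulRight u).exists_lt_apply_of_lt_opNorm
    (r := 1 + ‖u‖ - η) (by rw [h1]; linarith)
  simp only [add_apply, ContinuousLinearMap.id_apply,
    ContinuousLinearMap.smulRight_apply] at hz2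
  have key : ∀ z : X, ‖z‖ < 1 → 0 ≤ φ z → 1 + ‖u‖ - η < ‖z + φ z • u‖ →
      ‖z‖ ≤ 1 ∧ 1 - δ ≤ φ z ∧ ‖u‖ + 1 - δ ≤ ‖u + z‖ := by
    intro z hz1 hz0 hz2
    have h2 : ‖z + φ z • u‖ ≤ ‖z‖ + φ z * ‖u‖ := by
      calc _ ≤ ‖z‖ + ‖φ z • u‖ := norm_add_le _ _
        _ = _ := by rw [norm_smul, Real.norm_of_nonneg hz0]
    have h3 : φ z ≤ 1 := by
      calc φ z ≤ ‖φ z‖ := Real.le_norm_self _
        _ ≤ ‖φ‖ * ‖z‖ := φ.le_opNorm z
        _ ≤ 1 := by rw [hφ]; linarith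
    have h4 : (1 - φ z) * ‖u‖ ≤ η := by nlinarith
    have h5 : η ≤ δ / 2 := min_le_left _ _
    have h6 : η ≤ δ * ‖u‖ := min_le_right _ _
    refine ⟨hz1.le, ?_, ?_⟩
    · have : (1 - φ z) * ‖u‖ ≤ δ * ‖u‖ := h4.trans h6
      have := le_of_mul_le_mul_right this hupos
      linarith
    · have h7 : z + φ z • u = (u + z) - (1 - φ z) • u := by
        rw [sub_smul, one_smul]; abel
      have h8 : ‖z + φ z • u‖ ≤ ‖u + z‖ + (1 - φ z) * ‖u‖ := by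
        rw [h7]
        calc _ ≤ ‖u + z‖ + ‖(1 - φ z) • u‖ := norm_sub_le _ _
          _ = _ := by rw [norm_smul, Real.norm_of_nonneg (by linarith)]
      linarith
  rcases le_total 0 (φ z) with h0 | h0
  · exact ⟨z, key z hz1 h0 hz2⟩
  · refine ⟨-z, key (-z) (by simpa using hz1) (by simpa using h0) ?_⟩
    have : -z + φ (-z) • u = -(z + φ z • u) := by
      rw [map_neg, neg_smul]; abel
    rw [this, norm_neg]; exact hz2

theorem daug_slice (hD : L1Subspace.HasDaugavetProperty X) (u : X) (hu : u ≠ 0)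
    (x : X) (hx : ‖x‖ = 1) (ψ : X →L[ℝ] ℝ) {δ : ℝ} (hδ : 0 < δ) :
    ∃ z : X, ‖z‖ ≤ 1 ∧ ψ x - δ ≤ ψ z ∧ ‖u‖ + 1 - δ ≤ ‖u + z‖ := by
  by_cases hψ : ψ = 0
  · obtain ⟨φ, hφ, -⟩ := exists_dual_vector ℝ x (by rw [hx]; exact one_ne_zero)
    obtain ⟨z, h1, -, h3⟩ := daug_slice_one hD u hu φ hφ hδ
    exact ⟨z, h1, by simp [hψ, hδ.le], h3⟩
  · have hpos : 0 < ‖ψ‖ := norm_pos_iff.mpr hψ
    have hφ : ‖(‖ψ‖⁻¹ • ψ)‖ = 1 := by
      rw [norm_smul, norm_inv, norm_norm, inv_mul_cancel₀ hpos.ne']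
    obtain ⟨z, h1, h2, h3⟩ := daug_slice_one hD u hu _ hφ
      (δ := min δ (δ / ‖ψ‖)) (lt_min hδ (by positivity))
    refine ⟨z, h1, ?_, ?_⟩
    · simp only [smul_apply, smul_eq_mul] at h2
      have h4 : min δ (δ / ‖ψ‖) ≤ δ / ‖ψ‖ := min_le_right _ _
      have h5 : 1 - δ / ‖ψ‖ ≤ ‖ψ‖⁻¹ * ψ z := by linarith
      have h6 : ‖ψ‖ * (1 - δ / ‖ψ‖) ≤ ‖ψ‖ * (‖ψ‖⁻¹ * ψ z) := by gcongr
      have h7 : ‖ψ‖ * (1 - δ / ‖ψ‖) = ‖ψ‖ - δ := by field_simp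
      have h8 : ‖ψ‖ * (‖ψ‖⁻¹ * ψ z) = ψ z := by field_simp
      have h9 : ψ x ≤ ‖ψ‖ := by
        calc ψ x ≤ ‖ψ x‖ := Real.le_norm_self _
          _ ≤ ‖ψ‖ * ‖x‖ := ψ.le_opNorm x
          _ = ‖ψ‖ := by rw [hx, mul_one]
      linarith
    · have := min_le_left δ (δ / ‖ψ‖)
      linarith

theorem daug_iter (hD : L1Subspace.HasDaugavetProperty X) (x : X) (hx : ‖x‖ = 1)
    {V : Type} [NormedAddCommGroup V] [InnerProductSpace ℝ V] (q : X →L[ℝ] V)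
    (m : ℕ) (hm : 0 < m) {δ : ℝ} (hδ : 0 < δ) (hδ1 : δ ≤ 1) (j : ℕ) :
    ∃ w : X, ‖w‖ ≤ j ∧ (m : ℝ) + j - j * δ ≤ ‖-((m : ℝ) • x) + w‖ ∧
      ‖q w - (j : ℝ) • q x‖ ^ 2 ≤ j * ((2 * ‖q‖) ^ 2 + 2) := by
  induction j with
  | zero =>
    refine ⟨0, by simp, ?_, by simp⟩
    simp [norm_smul, hx]
  | succ j ih =>
    obtain ⟨w, h1, h2, h3⟩ := ih
    have hm' : (0 : ℝ) < m := by exact_mod_cast hm
    have hj : (0 : ℝ) ≤ j := Nat.cast_nonneg j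
    have hu : -((m : ℝ) • x) + w ≠ 0 := by
      intro h0
      rw [h0, norm_zero] at h2
      nlinarith
    set σ : V := q w - (j : ℝ) • q x with hσ
    obtain ⟨z, hz1, hz2, hz3⟩ := daug_slice hD _ hu x hx (-(innerSL ℝ σ ∘L q)) hδ
    simp only [neg_apply, ContinuousLinearMap.comp_apply,
      innerSL_apply_apply] at hz2
    refine ⟨w + z, ?_, ?_, ?_⟩
    · push_cast
      exact (norm_add_le _ _).trans (by linarith)
    · push_cast
      rw [← add_assoc (-((m : ℝ) • x)) w z]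
      linarith
    · have h4 : q (w + z) - ((j + 1 : ℕ) : ℝ) • q x = σ + (q z - q x) := by
        push_cast
        rw [map_add, add_smul, one_smul, hσ]; abel
      rw [h4, @norm_add_sq_real]
      have h5 : ‖q z - q x‖ ≤ 2 * ‖q‖ := by
        calc ‖q z - q x‖ ≤ ‖q z‖ + ‖q x‖ := norm_sub_le _ _
          _ ≤ ‖q‖ * ‖z‖ + ‖q‖ * ‖x‖ := add_le_add (q.le_opNorm _) (q.le_opNorm _)
          _ ≤ ‖q‖ * 1 + ‖q‖ * 1 := by gcongr; exact hx.le
          _ = _ := by ring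
      have h6 : ‖q z - q x‖ ^ 2 ≤ (2 * ‖q‖) ^ 2 := by gcongr
      have h7 : inner ℝ σ (q z - q x) ≤ 1 := by
        rw [inner_sub_right]; linarith
      push_cast
      linarith

theorem daug_direction (hD : L1Subspace.HasDaugavetProperty X) (x : X) (hx : ‖x‖ = 1)
    {F : Set X} (hF : Cof F) {ε : ℝ} (hε : 0 < ε) :
    ∃ y ∈ F, ‖y‖ = 1 ∧ ‖x + (2 : ℝ) • y‖ ≤ 1 + ε := by
  obtain ⟨n, q, C, hC, hq⟩ := hF.exists_euclid
  set δ : ℝ := min (ε / 3) (1 / 2) with hδ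
  have hδpos : 0 < δ := lt_min (by positivity) (by norm_num)
  have hδ1 : δ ≤ 1 / 2 := min_le_right _ _
  have hδ2 : δ ≤ ε / 3 := min_le_left _ _
  set B : ℝ := (2 * ‖q‖) ^ 2 + 2 with hB
  have hBpos : 0 < B := by positivity
  obtain ⟨m, hm⟩ := exists_nat_gt (B / (δ / C) ^ 2)
  have hm' : (0 : ℝ) < m := lt_trans (by positivity) hm
  have hm0 : 0 < m := by exact_mod_cast hm'
  obtain ⟨w, h1, h2, h3⟩ := daug_iter hD x hx q m hm0 hδpos (by linarith) m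
  set z : X := (m : ℝ)⁻¹ • w with hz
  have hw : w = (m : ℝ) • z := by rw [hz, smul_smul, mul_inv_cancel₀ hm'.ne', one_smul]
  have hz1 : ‖z‖ ≤ 1 := by
    rw [hw, norm_smul, Real.norm_of_nonneg hm'.le] at h1
    have : (m : ℝ) * ‖z‖ ≤ m * 1 := by linarith
    exact le_of_mul_le_mul_left this hm'
  have hz2 : 2 - δ ≤ ‖z - x‖ := by
    have : -((m : ℝ) • x) + w = (m : ℝ) • (z - x) := by rw [hw, smul_sub]; abel
    rw [this, norm_smul, Real.norm_of_nonneg hm'.le] at h2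
    have : (m : ℝ) * (2 - δ) ≤ m * ‖z - x‖ := by linarith
    exact le_of_mul_le_mul_left this hm'
  have hz3 : ‖q (z - x)‖ ≤ δ / C := by
    have : q w - (m : ℝ) • q x = (m : ℝ) • q (z - x) := by
      rw [hw, map_smul, map_sub, smul_sub]
    rw [this, norm_smul, Real.norm_of_nonneg hm'.le, mul_pow] at h3
    have h4 : (m : ℝ) * ‖q (z - x)‖ ^ 2 ≤ B := by
      have : (m : ℝ) * ((m : ℝ) * ‖q (z - x)‖ ^ 2) ≤ m * B := by linarith
      exact le_of_mul_le_mul_left this hm'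
    rw [div_lt_iff₀ (by positivity)] at hm
    have h5 : (m : ℝ) * ‖q (z - x)‖ ^ 2 ≤ m * (δ / C) ^ 2 := by linarith
    have h6 := le_of_mul_le_mul_left h5 hm'
    exact (pow_le_pow_iff_left₀ (norm_nonneg _) (by positivity) two_ne_zero).mp h6
  obtain ⟨v, hvF, hv⟩ := hq (z - x)
  have hv1 : ‖z - x - v‖ ≤ δ := by
    calc _ ≤ C * ‖q (z - x)‖ := hv
      _ ≤ C * (δ / C) := by gcongr
      _ = δ := by field_simp
  have hv2 : 2 - 2 * δ ≤ ‖v‖ := by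
    have : ‖z - x‖ ≤ ‖z - x - v‖ + ‖v‖ := by simpa using norm_add_le (z - x - v) v
    linarith
  have hv3 : ‖v‖ ≤ 2 + δ := by
    have h4 : ‖v‖ ≤ ‖z - x‖ + ‖z - x - v‖ := by simpa using norm_sub_le (z - x) (z - x - v)
    have h5 : ‖z - x‖ ≤ ‖z‖ + ‖x‖ := norm_sub_le _ _
    linarith
  have hvpos : 0 < ‖v‖ := by linarith
  refine ⟨‖v‖⁻¹ • v, hF.smul_mem _ hvF, ?_, ?_⟩
  · rw [norm_smul, norm_inv, norm_norm, inv_mul_cancel₀ hvpos.ne']
  · have h4 : x + (2 : ℝ) • ‖v‖⁻¹ • v = z - (z - x - v) + (2 - ‖v‖) • ‖v‖⁻¹ • v := by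
      rw [sub_smul, smul_smul ‖v‖, mul_inv_cancel₀ hvpos.ne', one_smul]; abel
    have h5 : ‖(2 - ‖v‖) • ‖v‖⁻¹ • v‖ ≤ 2 * δ := by
      rw [norm_smul, norm_smul, norm_inv, norm_norm, inv_mul_cancel₀ hvpos.ne', mul_one,
        Real.norm_eq_abs, abs_le]
      constructor <;> linarith
    rw [h4]
    calc _ ≤ ‖z - (z - x - v)‖ + ‖(2 - ‖v‖) • ‖v‖⁻¹ • v‖ := norm_add_le _ _
      _ ≤ (‖z‖ + ‖z - x - v‖) + 2 * δ := add_le_add (norm_sub_le _ _) h5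
      _ ≤ 1 + ε := by linarith

theorem daug_oneSided (hD : L1Subspace.HasDaugavetProperty X) (x : X) (hx : ‖x‖ = 1)
    {F : Set X} (hF : Cof F) {ε : ℝ} (hε : 0 < ε) {t : ℝ} (ht : 0 < t) :
    ∃ y ∈ F, ‖y‖ = 1 ∧ ‖x + t • y‖ - 1 ≤ max 0 (t - 2) + ε := by
  obtain ⟨y, hyF, hy1, hy⟩ := daug_direction hD x hx hF hε
  refine ⟨y, hyF, hy1, ?_⟩
  rcases le_total t 2 with h | h
  · have h1 : x + t • y = (1 - t / 2) • x + (t / 2) • (x + (2 : ℝ) • y) := by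
      rw [smul_add, smul_smul, sub_smul, one_smul]
      have : t / 2 * 2 = t := by ring
      rw [this]; abel
    have h2 : ‖x + t • y‖ ≤ (1 - t / 2) + (t / 2) * (1 + ε) := by
      rw [h1]
      calc _ ≤ ‖(1 - t / 2) • x‖ + ‖(t / 2) • (x + (2 : ℝ) • y)‖ := norm_add_le _ _
        _ = (1 - t / 2) + (t / 2) * ‖x + (2 : ℝ) • y‖ := by
          rw [norm_smul, norm_smul, hx, mul_one, Real.norm_of_nonneg (by linarith),
            Real.norm_of_nonneg (by linarith)]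
        _ ≤ _ := by gcongr
    have h3 := le_max_left 0 (t - 2)
    nlinarith
  · have h1 : x + t • y = (x + (2 : ℝ) • y) + (t - 2) • y := by
      rw [sub_smul]; abel
    have h2 : ‖x + t • y‖ ≤ (1 + ε) + (t - 2) := by
      rw [h1]
      calc _ ≤ ‖x + (2 : ℝ) • y‖ + ‖(t - 2) • y‖ := norm_add_le _ _
        _ ≤ _ := by
          rw [norm_smul, hy1, mul_one, Real.norm_of_nonneg (by linarith)]
          linarith
    have h3 := le_max_right 0 (t - 2)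
    linarith

theorem daug_not_isAUC [i3 : CompleteSpace X] (hD : L1Subspace.HasDaugavetProperty X)
    (hinf : ¬ FiniteDimensional ℝ X)
    (N : X → ℝ) (hN : (RealBanach.mk X i1 i2 i3).IsEquivNorm N) :
    ¬ (RealBanach.mk X i1 i2 i3).IsAUC N := by
  have hnt : Nontrivial X := by
    by_contra hcon
    rw [not_nontrivial_iff_subsingleton] at hcon
    exact hinf inferInstance
  obtain ⟨x0, hx0⟩ := exists_norm_eq X (zero_le_one (α := ℝ))
  refine not_isAUC 1 1 one_pos (fun h => ⟨fun _ => Metric.closedBall 0 1, ⟨0, by simp⟩,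
    fun j x hx => by simpa using hx, ?_⟩) N hN
  intro j _ x hx F hF ε hε
  rw [mem_closedBall_zero_iff] at hx
  have key : ∃ y ∈ F, ‖y‖ = 1 ∧ ‖x + y‖ ≤ 1 + ε := by
    by_cases hx' : x = 0
    · obtain ⟨y, hyF, hy1, -⟩ := daug_direction hD x0 hx0 hF hε
      exact ⟨y, hyF, hy1, by rw [hx', zero_add, hy1]; linarith⟩
    · have hr : 0 < ‖x‖ := norm_pos_iff.mpr hx'
      have h1 : ‖(‖x‖⁻¹ • x)‖ = 1 := by
        rw [norm_smul, norm_inv, norm_norm, inv_mul_cancel₀ hr.ne']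
      obtain ⟨y, hyF, hy1, hy⟩ := daug_oneSided hD _ h1 hF hε one_pos
      refine ⟨y, hyF, hy1, ?_⟩
      rw [one_smul, max_eq_left (by norm_num), zero_add] at hy
      have h2 : x + y = ‖x‖ • (‖x‖⁻¹ • x + y) + (1 - ‖x‖) • y := by
        rw [smul_add, smul_smul, mul_inv_cancel₀ hr.ne', one_smul, sub_smul, one_smul]; abel
      rw [h2]
      calc _ ≤ ‖‖x‖ • (‖x‖⁻¹ • x + y)‖ + ‖(1 - ‖x‖) • y‖ := norm_add_le _ _
        _ = ‖x‖ * ‖‖x‖⁻¹ • x + y‖ + (1 - ‖x‖) := by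
          rw [norm_smul, norm_smul, norm_norm, hy1, mul_one, Real.norm_of_nonneg (by linarith)]
        _ ≤ ‖x‖ * (1 + ε) + (1 - ‖x‖) := by gcongr; linarith
        _ ≤ 1 + ε := by nlinarith
  obtain ⟨y, hyF, hy1, hy⟩ := key
  refine ⟨y, hyF, hy1.ge, (1 + ε)⁻¹ • (x + y), ?_, ?_⟩
  · rw [mem_closedBall_zero_iff, norm_smul, Real.norm_of_nonneg (by positivity),
      inv_mul_le_iff₀ (by positivity)]
    linarith
  · have h1 : x + y - (1 + ε)⁻¹ • (x + y) = (ε / (1 + ε)) • (x + y) := by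
      have : ε / (1 + ε) = 1 - (1 + ε)⁻¹ := by field_simp; ring
      rw [this, sub_smul, one_smul]
    rw [h1, norm_smul, Real.norm_of_nonneg (by positivity)]
    calc ε / (1 + ε) * ‖x + y‖ ≤ ε / (1 + ε) * (1 + ε) := by gcongr
      _ = ε := by field_simp

end daug

end Crest.Agent.R125
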