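import Mathlib
import Crest.Prelude.Def_Diamond
import Crest.Agent.R125.Basic

set_option autoImplicit false

open Crest.AnalysisR Filter Topology

namespace Crest.Agent.R125

section mid

variable {X : Type} [i1 : NormedAddCommGroup X] [i2 : NormedSpace ℝ X]

variable (X) in
/-- homogeneous form of the midpoint lower bound -/
def MP : Prop := ∀ x : X, ∀ η : ℝ, 0 < η → ∃ F : Set X, Cof F ∧ ∀ y ∈ F,
  √(‖x‖ ^ 2 + ‖y‖ ^ 2 / 4) - η ≤ (‖x + y‖ + ‖x - y‖) / 2

theorem sqrt_lip {A A' c ε : ℝ} (hA : 0 ≤ A) (_hA' : 0 ≤ A') (hc : 0 ≤ c) (hε : 0 ≤ ε)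
    (h : A ≤ A' + ε) : √(A ^ 2 + c) ≤ √(A' ^ 2 + c) + ε := by
  have h1 : A' ≤ √(A' ^ 2 + c) := Real.le_sqrt_of_sq_le (by linarith)
  have h2 : √(A' ^ 2 + c) ^ 2 = A' ^ 2 + c := Real.sq_sqrt (by positivity)
  refine Real.sqrt_le_iff.mpr ⟨by positivity, ?_⟩
  have h3 : A ^ 2 ≤ (A' + ε) ^ 2 := by gcongr
  nlinarith

theorem mp_of_dense (h : ∀ x : X, ∀ η : ℝ, 0 < η → ∃ x0 : X, ‖x - x0‖ ≤ η ∧ ∃ F : Set X, Cof F ∧
    ∀ y ∈ F, √(‖x0‖ ^ 2 + ‖y‖ ^ 2 / 4) ≤ (‖x0 + y‖ + ‖x0 - y‖) / 2) : MP X := by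
  intro x η hη
  obtain ⟨x0, hx0, F, hF, hFy⟩ := h x (η / 2) (half_pos hη)
  refine ⟨F, hF, fun y hy => ?_⟩
  have h1 := hFy y hy
  have h2 : ‖x‖ ≤ ‖x0‖ + η / 2 := by
    have := norm_add_le x0 (x - x0)
    rw [add_sub_cancel] at this
    linarith
  have h3 := sqrt_lip (norm_nonneg x) (norm_nonneg x0) (c := ‖y‖ ^ 2 / 4) (by positivity)
    (half_pos hη).le h2
  have h4 : ‖x0 + y‖ ≤ ‖x + y‖ + η / 2 := by
    have := norm_sub_le (x + y) (x - x0)
    have e : x + y - (x - x0) = x0 + y := by abel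
    rw [e] at this
    linarith
  have h5 : ‖x0 - y‖ ≤ ‖x - y‖ + η / 2 := by
    have := norm_sub_le (x - y) (x - x0)
    have e : x - y - (x - x0) = x0 - y := by abel
    rw [e] at this
    linarith
  linarith

theorem MP.unit (h : MP X) (x : X) (hx : ‖x‖ = 1) {t : ℝ} (ht : 0 < t) {η : ℝ} (hη : 0 < η) :
    ∃ F : Set X, Cof F ∧ ∀ y ∈ F, ‖y‖ = 1 →
      √(1 + t ^ 2 / 4) - 1 - η ≤ (‖x + t • y‖ + ‖x - t • y‖) / 2 - 1 := by
  obtain ⟨F, hF, hFy⟩ := h x η hη
  refine ⟨F, hF, fun y hy hy1 => ?_⟩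
  have := hFy _ (hF.smul_mem t hy)
  rw [norm_smul, hy1, hx, mul_one, Real.norm_of_nonneg ht.le, one_pow] at this
  linarith

theorem MP.midpointGE [i3 : CompleteSpace X] (h : MP X) {t : ℝ} (ht : 0 < t) {c : ℝ}
    (hc : c ≤ √(1 + t ^ 2 / 4) - 1) :
    (RealBanach.mk X i1 i2 i3).MidpointModulusGE (RealBanach.mk X i1 i2 i3).norm t c := by
  intro x hx η hη
  obtain ⟨F, hF, hFy⟩ := h.unit x hx ht hη
  refine ⟨F, hF, fun y hy hy1 => ?_⟩
  have := hFy y hy hy1
  change X at x y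
  change c - η ≤ (‖x + t • y‖ + ‖x - t • y‖) / 2 - 1
  linarith

theorem MP.maxMidpointGE [i3 : CompleteSpace X] (h : MP X) {t : ℝ} (ht : 0 < t) :
    (RealBanach.mk X i1 i2 i3).MaxMidpointModulusGE (RealBanach.mk X i1 i2 i3).norm t
      (√(1 + t ^ 2 / 4) - 1) := by
  intro x hx η hη
  obtain ⟨F, hF, hFy⟩ := h.unit x hx ht hη
  refine ⟨F, hF, fun y hy hy1 => ?_⟩
  have := hFy y hy hy1
  change X at x y
  change √(1 + t ^ 2 / 4) - 1 - η ≤ max ‖x + t • y‖ ‖x - t • y‖ - 1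
  have h1 := le_max_left ‖x + t • y‖ ‖x - t • y‖
  have h2 := le_max_right ‖x + t • y‖ ‖x - t • y‖
  linarith

/-- the fork step of the diamond argument -/
theorem MP.fork (h : MP X) (u v : X) (z : ℕ → X) {A s : ℝ} (hs : 0 ≤ s)
    (h1 : ∀ i, ‖u - z i‖ ≤ A) (h2 : ∀ i, ‖z i - v‖ ≤ A)
    (h3 : ∀ i j, i ≠ j → 2 * s ≤ ‖z i - z j‖) : ‖u - v‖ ^ 2 / 4 + s ^ 2 / 4 ≤ A ^ 2 := by
  have hA : 0 ≤ A := (norm_nonneg _).trans (h1 0)
  set x : X := (1 / 2 : ℝ) • (u - v) with hx
  have hxn : ‖x‖ = ‖u - v‖ / 2 := by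
    rw [hx, norm_smul, Real.norm_of_nonneg (by norm_num)]; ring
  have key : √(s ^ 2 / 4 + ‖x‖ ^ 2) ≤ A := by
    refine le_of_forall_pos_le_add fun ε hε => ?_
    obtain ⟨F, hF, hFy⟩ := h x (ε / 3) (by positivity)
    obtain ⟨i, j, hij, w, hwF, hw⟩ := hF.exists_pair_near z (‖u‖ + A) (fun i => by
      have := norm_sub_le u (u - z i)
      rw [sub_sub_cancel] at this
      linarith [h1 i]) (ε := ε / 3) (by positivity)
    set y : X := (1 / 2 : ℝ) • w with hy
    have h4 := hFy y (hF.smul_mem _ hwF)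
    have hyn : ‖y‖ = ‖w‖ / 2 := by
      rw [hy, norm_smul, Real.norm_of_nonneg (by norm_num)]; ring
    have h5 : 2 * s ≤ ‖w‖ + ε / 3 := by
      have := norm_add_le w (z i - z j - w)
      rw [add_sub_cancel] at this
      linarith [h3 i j hij]
    have h6 : ‖x + y‖ ≤ A + ε / 3 := by
      have e : x + y = (1 / 2 : ℝ) • ((u - z j) + (z i - v) - (z i - z j - w)) := by
        rw [hx, hy, ← smul_add]; congr 1; abel
      rw [e, norm_smul, Real.norm_of_nonneg (by norm_num)]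
      have := norm_sub_le ((u - z j) + (z i - v)) (z i - z j - w)
      have := norm_add_le (u - z j) (z i - v)
      linarith [h1 j, h2 i]
    have h7 : ‖x - y‖ ≤ A + ε / 3 := by
      have e : x - y = (1 / 2 : ℝ) • ((u - z i) + (z j - v) + (z i - z j - w)) := by
        rw [hx, hy, ← smul_sub]; congr 1; abel
      rw [e, norm_smul, Real.norm_of_nonneg (by norm_num)]
      have := norm_add_le ((u - z i) + (z j - v)) (z i - z j - w)
      have := norm_add_le (u - z i) (z j - v)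
      linarith [h1 i, h2 j]
    have h8 := sqrt_lip (A := s / 2) (A' := ‖y‖ / 2) (c := ‖x‖ ^ 2) (ε := ε / 3) (by positivity)
      (by positivity) (by positivity) (by positivity) (by rw [hyn]; linarith)
    have e1 : (s / 2) ^ 2 + ‖x‖ ^ 2 = s ^ 2 / 4 + ‖x‖ ^ 2 := by ring
    have e2 : (‖y‖ / 2) ^ 2 + ‖x‖ ^ 2 = ‖x‖ ^ 2 + ‖y‖ ^ 2 / 4 := by ring
    rw [e1, e2] at h8
    linarith
  have := Real.sqrt_le_iff.mp key
  rw [hxn] at this
  linarith [this.2]

end mid

/-! ### diamonds -/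

theorem src_ne_tgt : ∀ (k : ℕ) (e : DiamondEdge k), diamondSrc k e ≠ diamondTgt k e
  | 0, _ => by simp [diamondSrc, diamondTgt]
  | k + 1, (e, i, b) => by cases b <;> simp [diamondSrc, diamondTgt]

theorem adj_edge (k : ℕ) (e : DiamondEdge k) :
    (diamondGraph k).Adj (diamondSrc k e) (diamondTgt k e) := by
  unfold diamondGraph
  rw [SimpleGraph.fromRel_adj]
  exact ⟨src_ne_tgt k e, Or.inl ⟨e, rfl, rfl⟩⟩

theorem adj_cases {k : ℕ} {u v : DiamondVertex k} (h : (diamondGraph k).Adj u v) :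
    ∃ e : DiamondEdge k, (diamondSrc k e = u ∧ diamondTgt k e = v) ∨
      (diamondSrc k e = v ∧ diamondTgt k e = u) := by
  unfold diamondGraph at h
  rw [SimpleGraph.fromRel_adj] at h
  rcases h.2 with ⟨e, he⟩ | ⟨e, he⟩
  · exact ⟨e, Or.inl he⟩
  · exact ⟨e, Or.inr he⟩

theorem adj_src (k : ℕ) (e : DiamondEdge k) (i : ℕ) :
    (diamondGraph (k + 1)).Adj (Sum.inl (diamondSrc k e)) (Sum.inr (e, i)) :=
  adj_edge (k + 1) (e, i, false)

theorem adj_tgt (k : ℕ) (e : DiamondEdge k) (i : ℕ) :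
    (diamondGraph (k + 1)).Adj (Sum.inr (e, i)) (Sum.inl (diamondTgt k e)) :=
  adj_edge (k + 1) (e, i, true)

theorem preconnected : ∀ k : ℕ, (diamondGraph k).Preconnected
  | 0 => by
    intro u v
    have h : (diamondGraph 0).Adj (false : Bool) (true : Bool) := adj_edge 0 ()
    cases u <;> cases v
    · exact SimpleGraph.Reachable.refl _
    · exact h.reachable
    · exact h.reachable.symm
    · exact SimpleGraph.Reachable.refl _
  | k + 1 => by
    have h1 : ∀ u v : DiamondVertex k, (diamondGraph (k + 1)).Reachable (Sum.inl u) (Sum.inl v) := by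
      intro u v
      obtain ⟨p⟩ := preconnected k u v
      induction p with
      | nil => exact SimpleGraph.Reachable.refl _
      | cons hadj p ih =>
        refine SimpleGraph.Reachable.trans ?_ ih
        obtain ⟨e, ⟨rfl, rfl⟩ | ⟨rfl, rfl⟩⟩ := adj_cases hadj
        · exact (adj_src k e 0).reachable.trans (adj_tgt k e 0).reachable
        · exact ((adj_src k e 0).reachable.trans (adj_tgt k e 0).reachable).symm
    have h2 : ∀ w : DiamondVertex (k + 1), ∃ u : DiamondVertex k,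
        (diamondGraph (k + 1)).Reachable w (Sum.inl u) := by
      rintro (u | ⟨e, i⟩)
      · exact ⟨u, SimpleGraph.Reachable.refl _⟩
      · exact ⟨_, (adj_tgt k e i).reachable⟩
    intro w w'
    obtain ⟨u, hu⟩ := h2 w
    obtain ⟨u', hu'⟩ := h2 w'
    exact (hu.trans (h1 u u')).trans hu'.symm

theorem le_dist_of_lip {V : Type} {G : SimpleGraph V} (φ : V → ℕ)
    (hφ : ∀ a b, G.Adj a b → φ b ≤ φ a + 1) {a b : V} (h : G.Reachable a b) :
    φ b ≤ φ a + G.dist a b := by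
  obtain ⟨p, hp⟩ := h.exists_walk_length_eq_dist
  rw [← hp]
  clear hp h
  induction p with
  | nil => simp
  | cons hadj p ih =>
    have := hφ _ _ hadj
    rw [SimpleGraph.Walk.length_cons]
    omega

theorem dist_adj_le {k : ℕ} (u : DiamondVertex k) {a b : DiamondVertex k}
    (h : (diamondGraph k).Adj a b) : diamondDist k u b ≤ diamondDist k u a + 1 := by
  unfold diamondDist
  obtain ⟨p, hp⟩ := (preconnected k u a).exists_walk_length_eq_dist
  have := SimpleGraph.dist_le (p.concat h)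
  rw [SimpleGraph.Walk.length_concat, hp] at this
  exact this

theorem two_mul_dist_le (k : ℕ) (u v : DiamondVertex k) :
    2 * diamondDist k u v ≤ diamondDist (k + 1) (Sum.inl u) (Sum.inl v) := by
  let φ : DiamondVertex (k + 1) → ℕ := fun w => match w with
    | Sum.inl w => 2 * diamondDist k u w
    | Sum.inr (e, _) => diamondDist k u (diamondSrc k e) + diamondDist k u (diamondTgt k e)
  have hφ : ∀ a b, (diamondGraph (k + 1)).Adj a b → φ b ≤ φ a + 1 := by
    intro a b hab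
    obtain ⟨⟨e, i, c⟩, h⟩ := adj_cases hab
    have h1 := dist_adj_le u (adj_edge k e)
    have h2 := dist_adj_le u (adj_edge k e).symm
    cases c <;> rcases h with ⟨rfl, rfl⟩ | ⟨rfl, rfl⟩ <;>
      simp only [φ, diamondSrc, diamondTgt, cond_true, cond_false] <;> omega
  have := le_dist_of_lip φ hφ (preconnected (k + 1) (Sum.inl u) (Sum.inl v))
  simp only [φ] at this
  have h0 : diamondDist k u u = 0 := SimpleGraph.dist_self
  rw [h0] at this
  simpa [diamondDist] using this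

theorem two_le_dist_mid (k : ℕ) (e : DiamondEdge k) {i j : ℕ} (hij : i ≠ j) :
    2 ≤ diamondDist (k + 1) (Sum.inr (e, i)) (Sum.inr (e, j)) := by
  classical
  let φ : DiamondVertex (k + 1) → ℕ := fun w => match w with
    | Sum.inl _ => 1
    | Sum.inr (_, l) => if l = i then 0 else 2
  have hφ : ∀ a b, (diamondGraph (k + 1)).Adj a b → φ b ≤ φ a + 1 := by
    intro a b hab
    obtain ⟨⟨e, l, c⟩, h⟩ := adj_cases hab
    cases c <;> rcases h with ⟨rfl, rfl⟩ | ⟨rfl, rfl⟩ <;>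
      simp only [φ, diamondSrc, diamondTgt, cond_true, cond_false] <;> split_ifs <;> omega
  have := le_dist_of_lip φ hφ (preconnected (k + 1) (Sum.inr (e, i)) (Sum.inr (e, j)))
  simp only [φ, if_neg hij.symm, if_true] at this
  simpa [diamondDist] using this

theorem dist_edge (k : ℕ) (e : DiamondEdge k) :
    diamondDist k (diamondSrc k e) (diamondTgt k e) = 1 :=
  SimpleGraph.dist_eq_one_iff_adj.mpr (adj_edge k e)

/-- some edge of the diamond -/
def someEdge : (k : ℕ) → DiamondEdge k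
  | 0 => ()
  | k + 1 => (someEdge k, 0, false)

section diamond

variable {X : Type} [i1 : NormedAddCommGroup X] [i2 : NormedSpace ℝ X]

theorem MP.diamond_aux (h : MP X) : ∀ (k : ℕ) (f : DiamondVertex k → X) (s A : ℝ), 0 ≤ s →
    (∀ u v, s * (diamondDist k u v : ℝ) ≤ ‖f u - f v‖) →
    (∀ e, ‖f (diamondSrc k e) - f (diamondTgt k e)‖ ≤ A) → s ^ 2 * (1 + (k : ℝ) / 4) ≤ A ^ 2
  | 0, f, s, A, hs, h1, h2 => by
    have h3 := h1 (diamondSrc 0 ()) (diamondTgt 0 ())
    rw [dist_edge] at h3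
    have h4 := h2 ()
    have h5 : s ≤ A := by simpa using h3.trans h4
    simp only [Nat.cast_zero, zero_div, add_zero, mul_one]
    gcongr
  | k + 1, f, s, A, hs, h1, h2 => by
    have hfork : ∀ e : DiamondEdge k,
        ‖f (Sum.inl (diamondSrc k e)) - f (Sum.inl (diamondTgt k e))‖ ^ 2 / 4 + s ^ 2 / 4 ≤ A ^ 2 := by
      intro e
      refine h.fork _ _ (fun i => f (Sum.inr (e, i))) hs (fun i => h2 (e, i, false))
        (fun i => h2 (e, i, true)) fun i j hij => ?_
      refine le_trans ?_ (h1 _ _)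
      have : (2 : ℝ) ≤ diamondDist (k + 1) (Sum.inr (e, i)) (Sum.inr (e, j)) := by
        exact_mod_cast two_le_dist_mid k e hij
      nlinarith
    have hpos : 0 ≤ 4 * A ^ 2 - s ^ 2 := by
      have := hfork (someEdge k)
      have h0 := sq_nonneg ‖f (Sum.inl (diamondSrc k (someEdge k))) -
        f (Sum.inl (diamondTgt k (someEdge k)))‖
      linarith
    have ih := MP.diamond_aux h k (fun u => f (Sum.inl u)) (2 * s) (√(4 * A ^ 2 - s ^ 2))
      (by positivity) (fun u v => by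
        refine le_trans ?_ (h1 _ _)
        have : (2 : ℝ) * diamondDist k u v ≤ diamondDist (k + 1) (Sum.inl u) (Sum.inl v) := by
          exact_mod_cast two_mul_dist_le k u v
        nlinarith)
      (fun e => Real.le_sqrt_of_sq_le (by linarith [hfork e]))
    rw [Real.sq_sqrt hpos] at ih
    push_cast
    nlinarith

theorem MP.diamond [i3 : CompleteSpace X] (h : MP X) (k : ℕ) (f : DiamondVertex k → X) (D : ℝ)
    (hf : (RealBanach.mk X i1 i2 i3).HasDistortionLE k f D) : 1 + (k : ℝ) / 4 ≤ D ^ 2 := by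
  obtain ⟨s, hs, hf⟩ := hf
  have := h.diamond_aux k f s (D * s) hs.le (fun u v => (hf u v).1) (fun e => by
    have := (hf (diamondSrc k e) (diamondTgt k e)).2
    rw [dist_edge] at this
    simpa using this)
  rw [mul_pow, mul_comm (D ^ 2)] at this
  exact le_of_mul_le_mul_left this (by positivity)

end diamond

end Crest.Agent.R125
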