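import Mathlib
import Crest.Agent.R125.Mid

set_option autoImplicit false

open Crest.AnalysisR Filter Topology

namespace Crest.Agent.R125

/-- reflexivity -/
def Refl (X : Type) [NormedAddCommGroup X] [NormedSpace ℝ X] : Prop :=
  Function.Surjective (NormedSpace.inclusionInDoubleDual ℝ X)

theorem refl_iff (X : Type) [NormedAddCommGroup X] [NormedSpace ℝ X] :
    Refl X ↔ ∀ Φ : (X →L[ℝ] ℝ) →L[ℝ] ℝ, ∃ x : X, ∀ φ : X →L[ℝ] ℝ, φ x = Φ φ := by
  constructor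
  · intro h Φ
    obtain ⟨x, hx⟩ := h Φ
    exact ⟨x, fun φ => by rw [← hx]; rfl⟩
  · intro h Φ
    obtain ⟨x, hx⟩ := h Φ
    exact ⟨x, by ext φ; exact hx φ⟩

theorem refl_of_equiv {X H : Type} [NormedAddCommGroup X] [NormedSpace ℝ X]
    [NormedAddCommGroup H] [InnerProductSpace ℝ H] [CompleteSpace H] (e : H ≃L[ℝ] X) : Refl X := by
  rw [refl_iff]
  intro Φ
  let T : H →L[ℝ] (X →L[ℝ] ℝ) :=
    ((ContinuousLinearMap.compL ℝ X H ℝ).flip (e.symm : X →L[ℝ] H)) ∘L (innerSL ℝ)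
  have hT : ∀ v z, T v z = inner ℝ v (e.symm z) := fun v z => rfl
  let w : H := (InnerProductSpace.toDual ℝ H).symm (Φ ∘L T)
  refine ⟨e w, fun φ => ?_⟩
  let v : H := (InnerProductSpace.toDual ℝ H).symm (φ ∘L (e : H →L[ℝ] X))
  have hv : T v = φ := by
    ext z
    rw [hT, InnerProductSpace.toDual_symm_apply]
    simp
  have h1 : Φ (T v) = inner ℝ w v := by
    rw [InnerProductSpace.toDual_symm_apply]; rfl
  rw [← hv, h1, hT, e.symm_apply_apply, real_inner_comm]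

section lp

variable {ι : Type} {E : ι → Type} [∀ i, NormedAddCommGroup (E i)]

theorem hasSum_sq (z : lp E 2) : HasSum (fun i => ‖z i‖ ^ 2) (‖z‖ ^ 2) := by
  have := lp.hasSum_norm (p := 2) (by norm_num) z
  simpa using this

theorem sum_sq_le (z : lp E 2) (s : Finset ι) : ∑ i ∈ s, ‖z i‖ ^ 2 ≤ ‖z‖ ^ 2 :=
  sum_le_hasSum s (fun _ _ => sq_nonneg _) (hasSum_sq z)

theorem norm_sum_single_sq [DecidableEq ι] (f : ∀ i, E i) (s : Finset ι) :
    ‖∑ i ∈ s, lp.single 2 i (f i)‖ ^ 2 = ∑ i ∈ s, ‖f i‖ ^ 2 := by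
  have := lp.norm_sum_single (p := 2) (by norm_num) f s
  simpa using this

theorem memlp_two {f : ∀ i, E i} {C : ℝ} (h : ∀ s : Finset ι, ∑ i ∈ s, ‖f i‖ ^ 2 ≤ C) :
    Memℓp f 2 := by
  refine memℓp_gen' (C := C) fun s => ?_
  simpa using h s

theorem sum_single_apply [DecidableEq ι] (f : ∀ i, E i) (s : Finset ι) (j : ι) :
    (∑ i ∈ s, lp.single 2 i (f i) : lp E 2) j = if j ∈ s then f j else 0 := by
  simp only [lp.coeFn_sum, lp.coeFn_single, Finset.sum_apply, Finset.sum_pi_single]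

variable [∀ i, NormedSpace ℝ (E i)]

theorem norm_sum_comp_eval_le (φ : ∀ i, E i →L[ℝ] ℝ) (s : Finset ι) :
    ‖∑ i ∈ s, φ i ∘L lp.evalCLM ℝ E 2 i‖ ≤ √(∑ i ∈ s, ‖φ i‖ ^ 2) := by
  refine ContinuousLinearMap.opNorm_le_bound _ (Real.sqrt_nonneg _) fun z => ?_
  rw [sum_apply]
  calc ‖∑ i ∈ s, (φ i ∘L lp.evalCLM ℝ E 2 i) z‖ ≤ ∑ i ∈ s, ‖φ i‖ * ‖z i‖ :=
        (norm_sum_le _ _).trans (Finset.sum_le_sum fun i _ => (φ i).le_opNorm (z i))
    _ ≤ √(∑ i ∈ s, ‖φ i‖ ^ 2) * √(∑ i ∈ s, ‖z i‖ ^ 2) := Real.sum_mul_le_sqrt_mul_sqrt _ _ _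
    _ ≤ √(∑ i ∈ s, ‖φ i‖ ^ 2) * ‖z‖ := by
        gcongr
        exact Real.sqrt_le_iff.mpr ⟨norm_nonneg _, sum_sq_le z s⟩

theorem sum_norm_comp_single_sq_le [DecidableEq ι] (ψ : lp E 2 →L[ℝ] ℝ) (s : Finset ι) :
    ∑ i ∈ s, ‖ψ ∘L lp.singleContinuousLinearMap ℝ E 2 i‖ ^ 2 ≤ 4 * ‖ψ‖ ^ 2 := by
  set ψi := fun i => ψ ∘L lp.singleContinuousLinearMap ℝ E 2 i with hψi
  have h1 : ∀ i, ∃ u : E i, ‖u‖ ≤ 1 ∧ ‖ψi i‖ / 2 ≤ ψi i u := by
    intro i
    by_cases h0 : ‖ψi i‖ = 0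
    · exact ⟨0, by simp, by simp [h0]⟩
    · have hpos : 0 < ‖ψi i‖ := lt_of_le_of_ne (norm_nonneg _) (Ne.symm h0)
      obtain ⟨u, hu1, hu2⟩ := (ψi i).exists_lt_apply_of_lt_opNorm (r := ‖ψi i‖ / 2) (by linarith)
      rcases le_total 0 (ψi i u) with h | h
      · exact ⟨u, hu1.le, by rw [Real.norm_of_nonneg h] at hu2; exact hu2.le⟩
      · refine ⟨-u, by simpa using hu1.le, ?_⟩
        rw [Real.norm_of_nonpos h] at hu2
        rw [map_neg]; exact hu2.le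
  choose u hu1 hu2 using h1
  set T := ∑ i ∈ s, ‖ψi i‖ ^ 2 with hT
  have hT0 : 0 ≤ T := Finset.sum_nonneg fun _ _ => sq_nonneg _
  set z : lp E 2 := ∑ i ∈ s, lp.single 2 i (‖ψi i‖ • u i) with hz
  have hz1 : ‖z‖ ≤ √T := by
    refine Real.le_sqrt_of_sq_le ?_
    rw [hz, norm_sum_single_sq (fun i => ‖ψi i‖ • u i)]
    refine Finset.sum_le_sum fun i _ => ?_
    rw [norm_smul, norm_norm]
    have := mul_le_of_le_one_right (norm_nonneg (ψi i)) (hu1 i)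
    gcongr
  have hz2 : T / 2 ≤ ψ z := by
    rw [hz, map_sum, hT, Finset.sum_div]
    refine Finset.sum_le_sum fun i _ => ?_
    have : ψ (lp.single 2 i (‖ψi i‖ • u i)) = ‖ψi i‖ * ψi i (u i) := by
      rw [← smul_eq_mul, ← map_smul]; rfl
    rw [this]
    nlinarith [hu2 i, norm_nonneg (ψi i)]
  have hz3 : ψ z ≤ ‖ψ‖ * √T :=
    (Real.le_norm_self _).trans ((ψ.le_opNorm z).trans (by gcongr))
  have h3 : √T * √T = T := Real.mul_self_sqrt hT0
  nlinarith [sq_nonneg (2 * ‖ψ‖ - √T)]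

theorem hasSum_dual [DecidableEq ι] (ψ : lp E 2 →L[ℝ] ℝ) :
    HasSum (fun i => (ψ ∘L lp.singleContinuousLinearMap ℝ E 2 i) ∘L lp.evalCLM ℝ E 2 i) ψ := by
  set ψi := fun i => ψ ∘L lp.singleContinuousLinearMap ℝ E 2 i with hψi
  have hs : Summable fun i => ‖ψi i‖ ^ 2 :=
    summable_of_sum_le (fun _ => sq_nonneg _) (sum_norm_comp_single_sq_le ψ)
  have hs2 : Summable fun i => ψi i ∘L lp.evalCLM ℝ E 2 i := by
    rw [summable_iff_vanishing_norm] at hs ⊢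
    intro ε hε
    obtain ⟨s, hs⟩ := hs (ε ^ 2) (by positivity)
    refine ⟨s, fun t ht => (norm_sum_comp_eval_le ψi t).trans_lt ?_⟩
    rw [Real.sqrt_lt' hε]
    exact (Real.le_norm_self _).trans_lt (hs t ht)
  obtain ⟨ψ', hψ'⟩ := hs2
  have : ψ' = ψ := by
    ext1 z
    have h1 := (ContinuousLinearMap.apply ℝ ℝ z).hasSum hψ'
    have h2 := ψ.hasSum (lp.hasSum_single (p := 2) (by norm_num) z)
    exact h1.unique h2
  rwa [this] at hψ'

theorem refl_lp (h : ∀ i, Refl (E i)) : Refl (lp E 2) := by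
  classical
  rw [refl_iff]
  intro Φ
  have h1 : ∀ i, ∃ x : E i, ∀ φ : E i →L[ℝ] ℝ, φ x = Φ (φ ∘L lp.evalCLM ℝ E 2 i) := fun i =>
    (refl_iff _).mp (h i) (Φ ∘L ((ContinuousLinearMap.compL ℝ (lp E 2) (E i) ℝ).flip
      (lp.evalCLM ℝ E 2 i)))
  choose x hx using h1
  have hmem : Memℓp x 2 := by
    refine memlp_two (C := ‖Φ‖ ^ 2) fun s => ?_
    choose g hg1 hg2 using fun i => exists_dual_vector'' ℝ (x i)
    set T := ∑ i ∈ s, ‖x i‖ ^ 2 with hT
    have hT0 : 0 ≤ T := Finset.sum_nonneg fun _ _ => sq_nonneg _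
    have h2 := norm_sum_comp_eval_le (fun i => ‖x i‖ • g i) s
    have h3 : ∑ i ∈ s, ‖‖x i‖ • g i‖ ^ 2 ≤ T := by
      refine Finset.sum_le_sum fun i _ => ?_
      rw [norm_smul, norm_norm]
      have := mul_le_of_le_one_right (norm_nonneg (x i)) (hg1 i)
      gcongr
    have h4 : Φ (∑ i ∈ s, (‖x i‖ • g i) ∘L lp.evalCLM ℝ E 2 i) = T := by
      rw [map_sum]
      refine Finset.sum_congr rfl fun i _ => ?_
      rw [← hx, smul_apply, hg2, smul_eq_mul, sq]; rfl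
    have h5 : T ≤ ‖Φ‖ * √T := by
      rw [← h4]
      refine (Real.le_norm_self _).trans ((Φ.le_opNorm _).trans ?_)
      rw [h4]
      gcongr
      exact h2.trans (Real.sqrt_le_sqrt h3)
    have h6 : √T * √T = T := Real.mul_self_sqrt hT0
    nlinarith [sq_nonneg (‖Φ‖ - √T)]
  refine ⟨⟨x, hmem⟩, fun ψ => ?_⟩
  have h2 := Φ.hasSum (hasSum_dual ψ)
  have h3 := ψ.hasSum (lp.hasSum_single (p := 2) (by norm_num) (⟨x, hmem⟩ : lp E 2))
  refine h3.unique ?_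
  convert h2 using 2 with i
  rw [← hx]; rfl

theorem separable_lp [Countable ι] (h : ∀ i, TopologicalSpace.SeparableSpace (E i)) :
    TopologicalSpace.SeparableSpace (lp E 2) := by
  classical
  rw [← TopologicalSpace.isSeparable_univ_iff]
  have h1 : TopologicalSpace.IsSeparable
      (⋃ i, (lp.singleContinuousLinearMap ℝ E 2 i) '' Set.univ) :=
    TopologicalSpace.isSeparable_iUnion.mpr fun i =>
      (TopologicalSpace.isSeparable_univ_iff.mpr (h i)).image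
        (lp.singleContinuousLinearMap ℝ E 2 i).continuous
  refine (h1.span (R := ℝ)).closure.mono fun z _ => ?_
  refine mem_closure_of_tendsto (lp.hasSum_single (p := 2) (by norm_num) z)
    (Eventually.of_forall fun s => Submodule.sum_mem _ fun i _ => Submodule.subset_span ?_)
  exact Set.mem_iUnion.mpr ⟨i, z i, trivial, rfl⟩

end lp

section mpx

variable (X : Type) [NormedAddCommGroup X] [NormedSpace ℝ X] in
/-- exact midpoint inequality at a dense set of centres -/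
def MPX : Prop := ∀ x : X, ∀ η : ℝ, 0 < η → ∃ x0 : X, ‖x - x0‖ ≤ η ∧ ∃ F : Set X, Cof F ∧
    ∀ y ∈ F, √(‖x0‖ ^ 2 + ‖y‖ ^ 2 / 4) ≤ (‖x0 + y‖ + ‖x0 - y‖) / 2

theorem Cof.exists_ker {X : Type} [NormedAddCommGroup X] [NormedSpace ℝ X] {F : Set X}
    (h : Cof F) : ∃ (n : ℕ) (q : X →L[ℝ] EuclideanSpace ℝ (Fin n)), ∀ y, q y = 0 → y ∈ F := by
  obtain ⟨n, q, C, -, hq⟩ := h.exists_euclid
  refine ⟨n, q, fun y hy => ?_⟩
  obtain ⟨y', hy', h1⟩ := hq y
  rw [hy, norm_zero, mul_zero, norm_le_zero_iff, sub_eq_zero] at h1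
  rwa [h1]

variable {ι : Type} {E : ι → Type} [∀ i, NormedAddCommGroup (E i)] [∀ i, NormedSpace ℝ (E i)]

omit [∀ i, NormedSpace ℝ (E i)] in
theorem lp_mid (x y : lp E 2)
    (h : ∀ i, √(‖x i‖ ^ 2 + ‖y i‖ ^ 2 / 4) ≤ (‖x i + y i‖ + ‖x i - y i‖) / 2) :
    √(‖x‖ ^ 2 + ‖y‖ ^ 2 / 4) ≤ (‖x + y‖ + ‖x - y‖) / 2 := by
  refine Real.sqrt_le_iff.mpr ⟨by positivity, ?_⟩
  have h1 := (hasSum_sq x).add ((hasSum_sq y).div_const 4)
  have hc : (2 : ENNReal).toReal.HolderConjugate (2 : ENNReal).toReal := by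
    simpa using Real.HolderConjugate.two_two
  have h2 := (lp.summable_mul hc (x + y) (x - y)).hasSum
  have h3 := lp.tsum_mul_le_mul_norm' hc (x + y) (x - y)
  have h4 := (((hasSum_sq (x + y)).add (hasSum_sq (x - y))).add (h2.mul_left 2)).div_const 4
  have h5 := hasSum_le (fun i => ?_) h1 h4
  · nlinarith
  · have := (Real.sqrt_le_iff.mp (h i)).2
    simp only [lp.coeFn_add, lp.coeFn_sub, Pi.add_apply, Pi.sub_apply]
    nlinarith

theorem mpx_lp (h : ∀ i, MPX (E i)) : MPX (lp E 2) := by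
  classical
  intro x η hη
  have h1 := lp.hasSum_single (p := 2) (by norm_num) x
  obtain ⟨s, hs⟩ := (Metric.tendsto_nhds.mp h1 (η / 2) (half_pos hη)).exists
  rw [dist_comm, dist_eq_norm] at hs
  choose x0 hx0 F hF hFy using fun i => h i (x i) (η / 2 / (s.card + 1)) (by positivity)
  choose n q hq using fun i => (hF i).exists_ker
  refine ⟨∑ i ∈ s, lp.single 2 i (x0 i), ?_, {y | (ContinuousLinearMap.pi fun i : s =>
    q i ∘L lp.evalCLM ℝ E 2 i) y = 0}, cof_ker _, fun y hy => ?_⟩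
  · have e : x - ∑ i ∈ s, lp.single 2 i (x0 i) = (x - ∑ i ∈ s, lp.single 2 i (x i)) +
        ∑ i ∈ s, lp.single 2 i (x i - x0 i) := by
      simp only [lp.single_sub, Finset.sum_sub_distrib]; abel
    rw [e]
    have h2 : ‖(∑ i ∈ s, lp.single 2 i (x i - x0 i) : lp E 2)‖ ≤ η / 2 := by
      calc _ ≤ ∑ i ∈ s, ‖(lp.single 2 i (x i - x0 i) : lp E 2)‖ := norm_sum_le _ _
        _ ≤ ∑ i ∈ s, η / 2 / (s.card + 1) := Finset.sum_le_sum fun i _ => by
            rw [lp.norm_single (by norm_num)]; exact hx0 i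
        _ = s.card * (η / 2 / (s.card + 1)) := by simp
        _ ≤ (s.card + 1) * (η / 2 / (s.card + 1)) := by gcongr; linarith
        _ = η / 2 := by field_simp
    exact (norm_add_le _ _).trans (by linarith)
  · refine lp_mid _ _ fun i => ?_
    rw [sum_single_apply]
    split_ifs with hi
    · refine hFy i _ (hq i _ ?_)
      exact congr_fun hy ⟨i, hi⟩
    · rw [zero_add, zero_sub, norm_neg, norm_zero]
      refine Real.sqrt_le_iff.mpr ⟨by positivity, ?_⟩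
      nlinarith [sq_nonneg ‖y i‖]

end mpx

end Crest.Agent.R125
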