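import Mathlib
import Crest.Prelude.Def_TreePotentials
import Crest.Agent.R125.Basic

set_option autoImplicit false

open Crest.AnalysisR Filter Topology
open Crest.AnalysisR.TreePotential

namespace Crest.Agent.R125

/-! ### potentials and tests -/

/-- increments of a function along the tree -/
def incr (Φ : List ℕ → ℝ) : List ℕ → ℝ
  | [] => Φ []
  | a :: v => Φ (a :: v) - Φ v

theorem pot_incr (Φ : List ℕ → ℝ) : ∀ s, pathPotential (incr Φ) s = Φ s
  | [] => rfl
  | a :: v => by simp only [pathPotential, incr]; rw [pot_incr Φ v]; ring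

theorem pot_neg (f : List ℕ → ℝ) : ∀ s, pathPotential (fun u => -f u) s = -pathPotential f s
  | [] => rfl
  | a :: v => by simp only [pathPotential]; rw [pot_neg f v]; ring

theorem pot_sub (f g : List ℕ → ℝ) :
    ∀ s, pathPotential (fun u => f u - g u) s = pathPotential f s - pathPotential g s
  | [] => rfl
  | a :: v => by simp only [pathPotential]; rw [pot_sub f g v]; ring

theorem extra_of_sq_le {m : PotentialModel} {f g T : List ℕ → ℝ} {α β : ℝ} (hα : 0 ≤ α)
    (hβ : 0 ≤ β) (hαβ : α + β ≤ 1) (hf : ExtraCondition m f) (hg : ExtraCondition m g)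
    (hT : ∀ s, T s ^ 2 ≤ α * f s ^ 2 + β * g s ^ 2) : ExtraCondition m T := by
  have key : ∀ {ι : Type} (A : Finset ι) (e : ι → List ℕ), ∑ n ∈ A, f (e n) ^ 2 ≤ 1 →
      ∑ n ∈ A, g (e n) ^ 2 ≤ 1 → ∑ n ∈ A, T (e n) ^ 2 ≤ 1 := by
    intro ι A e h1 h2
    calc ∑ n ∈ A, T (e n) ^ 2 ≤ ∑ n ∈ A, (α * f (e n) ^ 2 + β * g (e n) ^ 2) :=
          Finset.sum_le_sum fun n _ => hT _
      _ = α * ∑ n ∈ A, f (e n) ^ 2 + β * ∑ n ∈ A, g (e n) ^ 2 := by
          rw [Finset.sum_add_distrib, Finset.mul_sum, Finset.mul_sum]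
      _ ≤ α * 1 + β * 1 := by gcongr
      _ ≤ 1 := by linarith
  cases m with
  | rootlessSibling =>
    refine ⟨?_, fun r A => key A (· :: r) (hf.2 r A) (hg.2 r A)⟩
    have := hT []
    rw [hf.1, hg.1] at this
    have h2 : T [] ^ 2 ≤ 0 := by simpa using this
    exact pow_eq_zero_iff two_ne_zero |>.mp (le_antisymm h2 (sq_nonneg _))
  | rootedSibling => exact fun r A => key A (· :: r) (hf r A) (hg r A)
  | antichain =>
    refine ⟨(hf.1.union hg.1).subset fun s hs => ?_, fun A hA => key A id (hf.2 A hA) (hg.2 A hA)⟩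
    by_contra hcon
    simp only [Set.mem_union, Function.mem_support, not_or, not_not] at hcon
    have := hT s
    rw [hcon.1, hcon.2] at this
    have h2 : T s ^ 2 ≤ 0 := by simpa using this
    exact hs (pow_eq_zero_iff two_ne_zero |>.mp (le_antisymm h2 (sq_nonneg _)))
  | global => exact fun A => key A id (hf A) (hg A)

theorem isTest_neg {m : PotentialModel} {f : List ℕ → ℝ} (hf : IsTest m f) :
    IsTest m (fun u => -f u) := by
  refine ⟨fun s => by rw [pot_neg, abs_neg]; exact hf.1 s, ?_⟩
  exact extra_of_sq_le (α := 1) (β := 0) zero_le_one le_rfl (by norm_num) hf.2 hf.2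
    (fun s => by simp)

theorem pot_zero : ∀ s, pathPotential (fun _ => 0) s = 0
  | [] => rfl
  | a :: v => by simp only [pathPotential]; rw [pot_zero v]; ring

theorem isTest_zero (m : PotentialModel) : IsTest m (fun _ => 0) := by
  refine ⟨fun s => by rw [pot_zero]; simp, ?_⟩
  cases m with
  | rootlessSibling => exact ⟨rfl, fun r A => by simp⟩
  | rootedSibling => exact fun r A => by simp
  | antichain => exact ⟨by simp, fun A _ => by simp⟩
  | global => exact fun A => by simp

/-- indicator of a vertex -/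
def dlt (s : List ℕ) : List ℕ → ℝ := fun u => if u = s then 1 else 0

theorem pot_dlt (s : List ℕ) : ∀ u, pathPotential (dlt s) u = if s <:+ u then 1 else 0
  | [] => by simp [pathPotential, dlt, eq_comm]
  | a :: v => by
    simp only [pathPotential]
    rw [pot_dlt s v]
    by_cases h : a :: v = s
    · subst h
      have : ¬ (a :: v <:+ v) := fun h => by simpa using h.length_le
      simp [dlt, this]
    · have h' : s ≠ a :: v := fun h2 => h h2.symm
      simp [dlt, h, List.suffix_cons_iff, h']

theorem sum_dlt_sq_le {ι : Type} (s : List ℕ) (A : Finset ι) (e : ι → List ℕ)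
    (he : Function.Injective e) : ∑ n ∈ A, dlt s (e n) ^ 2 ≤ 1 := by
  classical
  have : ∀ n, dlt s (e n) ^ 2 = if e n = s then 1 else 0 := by
    intro n; unfold dlt; split_ifs <;> simp
  simp only [this]
  rw [← Finset.sum_filter]
  simp only [Finset.sum_const, nsmul_eq_mul, mul_one]
  have : (A.filter fun n => e n = s).card ≤ 1 := by
    rw [Finset.card_le_one]
    intro a ha b hb
    rw [Finset.mem_filter] at ha hb
    exact he (ha.2.trans hb.2.symm)
  exact_mod_cast this

theorem isTest_dlt {m : PotentialModel} {s : List ℕ} (h : m ≠ .rootlessSibling ∨ s ≠ []) :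
    IsTest m (dlt s) := by
  refine ⟨fun u => by rw [pot_dlt]; split_ifs <;> simp, ?_⟩
  have hinj : ∀ r : List ℕ, Function.Injective (fun n : ℕ => n :: r) :=
    fun r a b hab => by simpa using hab
  cases m with
  | rootlessSibling =>
    refine ⟨?_, fun r A => sum_dlt_sq_le s A _ (hinj r)⟩
    have : s ≠ [] := by simpa using h
    simp [dlt, this.symm]
  | rootedSibling => exact fun r A => sum_dlt_sq_le s A _ (hinj r)
  | antichain =>
    refine ⟨(Set.finite_singleton s).subset fun u hu => ?_,
      fun A _ => sum_dlt_sq_le s A id Function.injective_id⟩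
    by_contra hcon
    exact hu (by simp only [dlt]; exact if_neg hcon)
  | global => exact fun A => sum_dlt_sq_le s A id Function.injective_id

theorem sum_children_sq_le {m : PotentialModel} {f : List ℕ → ℝ} (hf : IsTest m f) (r : List ℕ)
    (A : Finset ℕ) : ∑ n ∈ A, f (n :: r) ^ 2 ≤ 1 := by
  classical
  have himg : ∑ n ∈ A, f (n :: r) ^ 2 = ∑ u ∈ A.image (· :: r), f u ^ 2 := by
    rw [Finset.sum_image (fun a _ b _ hab => by simpa using hab)]
  cases m with
  | rootlessSibling => exact hf.2.2 r A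
  | rootedSibling => exact hf.2 r A
  | antichain =>
    rw [himg]
    refine hf.2.2 _ ?_
    intro u hu v hv huv hsuf
    obtain ⟨a, -, rfl⟩ := Finset.mem_image.mp hu
    obtain ⟨b, -, rfl⟩ := Finset.mem_image.mp hv
    exact huv (hsuf.eq_of_length (by simp))
  | global => rw [himg]; exact hf.2 _

/-! ### the combined test -/

/-- `S` contains the root and is closed under passing to parents -/
def AncClosed (S : Finset (List ℕ)) : Prop := [] ∈ S ∧ ∀ a v, a :: v ∈ S → v ∈ S

/-- restriction to `S` -/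
def onS (S : Finset (List ℕ)) (f : List ℕ → ℝ) : List ℕ → ℝ := fun u => if u ∈ S then f u else 0

/-- restriction to the complement of `S` -/
def offS (S : Finset (List ℕ)) (f : List ℕ → ℝ) : List ℕ → ℝ := fun u => if u ∈ S then 0 else f u

theorem pot_onS_mem {S : Finset (List ℕ)} (hS : AncClosed S) (f : List ℕ → ℝ) :
    ∀ s ∈ S, pathPotential (onS S f) s = pathPotential f s
  | [], h => by simp [pathPotential, onS, h]
  | a :: v, h => by
    simp only [pathPotential]
    rw [pot_onS_mem hS f v (hS.2 a v h)]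
    simp [onS, h]

theorem abs_pot_onS {S : Finset (List ℕ)} (hS : AncClosed S) {f : List ℕ → ℝ}
    (hf : ∀ s, |pathPotential f s| ≤ 1) : ∀ s, |pathPotential (onS S f) s| ≤ 1
  | [] => by rw [pot_onS_mem hS f [] hS.1]; exact hf _
  | a :: v => by
    by_cases h : a :: v ∈ S
    · rw [pot_onS_mem hS f _ h]; exact hf _
    · simp only [pathPotential, onS, if_neg h, add_zero]
      exact abs_pot_onS hS hf v

theorem pot_offS (S : Finset (List ℕ)) (f : List ℕ → ℝ) (s : List ℕ) :
    pathPotential (offS S f) s = pathPotential f s - pathPotential (onS S f) s := by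
  rw [← pot_sub]
  congr 1
  ext u
  unfold offS onS
  split_ifs <;> simp

/-- one-sided truncation -/
noncomputable def trunc (p q : ℝ) : ℝ := if p ≤ 0 then max q 0 else min q 0

theorem trunc_zero (p : ℝ) : trunc p 0 = 0 := by unfold trunc; split_ifs <;> simp

theorem trunc_sub_neg (p q : ℝ) : trunc p q - trunc p (-q) = q := by
  unfold trunc; split_ifs
  · rcases le_total q 0 with h | h
    · rw [max_eq_right h, max_eq_left (by linarith)]; ring
    · rw [max_eq_left h, max_eq_right (by linarith)]; ring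
  · rcases le_total q 0 with h | h
    · rw [min_eq_left h, min_eq_right (by linarith)]; ring
    · rw [min_eq_right h, min_eq_left (by linarith)]; ring

theorem abs_trunc_sub (p q q' : ℝ) : |trunc p q - trunc p q'| ≤ |q - q'| := by
  unfold trunc; split_ifs
  · exact abs_max_sub_max_le_abs _ _ _
  · have h := abs_min_sub_min_le_max q 0 q' 0
    simpa using h

theorem abs_comb_le {a b p q : ℝ} (ha : 0 ≤ a) (ha1 : a ≤ 1) (hb : 0 ≤ b) (hb1 : 2 * b ≤ 1)
    (hp : |p| ≤ 1) (hq : |q| ≤ 2) : |a * p + b * trunc p q| ≤ 1 := by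
  rw [abs_le] at hp hq ⊢
  unfold trunc; split_ifs with h
  · have h1 : 0 ≤ max q 0 := le_max_right _ _
    have h2 : max q 0 ≤ 2 := max_le hq.2 (by norm_num)
    constructor <;> nlinarith
  · have h1 : min q 0 ≤ 0 := min_le_right _ _
    have h2 : -2 ≤ min q 0 := le_min hq.1 (by norm_num)
    push Not at h
    constructor <;> nlinarith

/-- the combined test -/
noncomputable def comb (S : Finset (List ℕ)) (a b : ℝ) (f g : List ℕ → ℝ) : List ℕ → ℝ :=
  incr fun s => a * pathPotential (onS S f) s +
    b * trunc (pathPotential (onS S f) s) (pathPotential (offS S g) s)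

theorem pot_offS_mem {S : Finset (List ℕ)} (hS : AncClosed S) (g : List ℕ → ℝ) {s : List ℕ}
    (hs : s ∈ S) : pathPotential (offS S g) s = 0 := by
  rw [pot_offS, pot_onS_mem hS g s hs, sub_self]

theorem comb_mem {S : Finset (List ℕ)} (hS : AncClosed S) (a b : ℝ) (f g : List ℕ → ℝ) :
    ∀ s ∈ S, comb S a b f g s = a * f s
  | [], h => by
    simp only [comb, incr]
    rw [pot_offS_mem hS g h, trunc_zero, pot_onS_mem hS f _ h]
    simp [pathPotential]
  | c :: v, h => by
    have hv := hS.2 c v h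
    simp only [comb, incr]
    rw [pot_offS_mem hS g h, pot_offS_mem hS g hv, trunc_zero, trunc_zero, pot_onS_mem hS f _ h,
      pot_onS_mem hS f _ hv]
    simp only [pathPotential]; ring

theorem comb_notMem {S : Finset (List ℕ)} (a b : ℝ) (f g : List ℕ → ℝ)
    {c : ℕ} {v : List ℕ} (h : c :: v ∉ S) :
    comb S a b f g (c :: v) =
      b * (trunc (pathPotential (onS S f) v) (pathPotential (offS S g) v + g (c :: v)) -
        trunc (pathPotential (onS S f) v) (pathPotential (offS S g) v)) := by
  simp only [comb, incr, pathPotential]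
  have h1 : onS S f (c :: v) = 0 := by simp [onS, h]
  have h2 : offS S g (c :: v) = g (c :: v) := by simp [offS, h]
  rw [h1, h2, add_zero]; ring

theorem isTest_comb {m : PotentialModel} {S : Finset (List ℕ)} (hS : AncClosed S) {a b : ℝ}
    (ha : 0 ≤ a) (hb : 0 ≤ b) (hab : a ^ 2 + b ^ 2 ≤ 1) (hb1 : 2 * b ≤ 1) {f g : List ℕ → ℝ}
    (hf : IsTest m f) (hg : IsTest m g) : IsTest m (comb S a b f g) := by
  have ha1 : a ≤ 1 := by nlinarith
  refine ⟨fun s => ?_, extra_of_sq_le (sq_nonneg a) (sq_nonneg b) hab hf.2 hg.2 fun s => ?_⟩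
  · unfold comb
    rw [pot_incr]
    refine abs_comb_le ha ha1 hb hb1 (abs_pot_onS hS hf.1 s) ?_
    rw [pot_offS]
    have h1 := hg.1 s
    have h2 := abs_pot_onS hS hg.1 s
    exact (abs_sub _ _).trans (by linarith)
  · by_cases hs : s ∈ S
    · rw [comb_mem hS a b f g s hs, mul_pow]
      have : 0 ≤ b ^ 2 * g s ^ 2 := by positivity
      linarith
    · cases s with
      | nil => exact absurd hS.1 hs
      | cons c v =>
        rw [comb_notMem a b f g hs, mul_pow]
        have h1 := abs_trunc_sub (pathPotential (onS S f) v)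
          (pathPotential (offS S g) v + g (c :: v)) (pathPotential (offS S g) v)
        rw [add_sub_cancel_left] at h1
        have h2 := sq_le_sq.mpr h1
        have : 0 ≤ a ^ 2 * f (c :: v) ^ 2 := by positivity
        have h3 := mul_le_mul_of_nonneg_left h2 (sq_nonneg b)
        linarith

theorem comb_sub_neg {S : Finset (List ℕ)} (hS : AncClosed S) (a b : ℝ) (f g : List ℕ → ℝ)
    {s : List ℕ} (hs : s ∉ S) :
    comb S a b f g s - comb S a b f (fun u => -g u) s = b * g s := by
  cases s with
  | nil => exact absurd hS.1 hs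
  | cons c v =>
    rw [comb_notMem a b f g hs, comb_notMem a b f _ hs]
    have h1 : offS S (fun u => -g u) = fun u => -offS S g u := by
      ext u; unfold offS; split_ifs <;> simp
    rw [h1, pot_neg]
    set p := pathPotential (onS S f) v
    set q := pathPotential (offS S g) v
    have e1 := trunc_sub_neg p q
    have e2 := trunc_sub_neg p (q + g (c :: v))
    have e3 : -q + -g (c :: v) = -(q + g (c :: v)) := by ring
    rw [e3]
    linear_combination b * e2 - b * e1

/-! ### vectors -/

/-- the ambient space -/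
abbrev Amb (m : PotentialModel) : Type := lp (fun _ : PotentialTest m => ℝ) ⊤

/-- evaluation at a test -/
noncomputable def ev {m : PotentialModel} (f : PotentialTest m) : Amb m →L[ℝ] ℝ :=
  lp.evalCLM ℝ (fun _ : PotentialTest m => ℝ) ⊤ f

theorem ev_apply {m : PotentialModel} (f : PotentialTest m) (z : Amb m) : ev f z = z f := rfl

theorem ev_coord {m : PotentialModel} (f : PotentialTest m) (s : List ℕ) :
    ev f (coordVector m s) = f.1 s := rfl

theorem ev_le_norm {m : PotentialModel} (f : PotentialTest m) (z : Amb m) : ev f z ≤ ‖z‖ :=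
  (Real.le_norm_self _).trans (lp.norm_apply_le_norm (by simp) z f)

/-- finite combinations of coordinate vectors -/
noncomputable def vec (m : PotentialModel) : (List ℕ →₀ ℝ) →ₗ[ℝ] Amb m :=
  Finsupp.linearCombination ℝ (coordVector m)

theorem ev_vec {m : PotentialModel} (f : PotentialTest m) (x : List ℕ →₀ ℝ)
    {U : Finset (List ℕ)} (hU : x.support ⊆ U) : ev f (vec m x) = ∑ s ∈ U, f.1 s * x s := by
  unfold vec
  rw [Finsupp.linearCombination_apply, Finsupp.sum_of_support_subset x hU _ (by simp), map_sum]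
  refine Finset.sum_congr rfl fun s _ => ?_
  rw [map_smul, ev_coord, smul_eq_mul, mul_comm]

theorem norm_vec_le {m : PotentialModel} (x : List ℕ →₀ ℝ) {C : ℝ}
    (h : ∀ f : PotentialTest m, ev f (vec m x) ≤ C) : ‖vec m x‖ ≤ C := by
  have h0 : 0 ≤ C := by
    have := h ⟨_, isTest_zero m⟩
    rw [ev_vec _ x subset_rfl] at this
    simpa using this
  refine lp.norm_le_of_forall_le h0 fun f => ?_
  rw [Real.norm_eq_abs, abs_le]
  refine ⟨?_, h f⟩
  have h1 := h ⟨_, isTest_neg f.2⟩
  rw [ev_vec _ x subset_rfl] at h1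
  rw [← ev_apply, ev_vec _ x subset_rfl]
  simp only [neg_mul, Finset.sum_neg_distrib] at h1
  linarith

theorem mid_tests {m : PotentialModel} {S : Finset (List ℕ)} (hS : AncClosed S) {a b : ℝ}
    (ha : 0 ≤ a) (hb : 0 ≤ b) (hab : a ^ 2 + b ^ 2 ≤ 1) (hb1 : 2 * b ≤ 1)
    (x y : List ℕ →₀ ℝ) (hx : ∀ s ∉ S, x s = 0) (hy : ∀ s ∈ S, y s = 0) (f g : PotentialTest m) :
    2 * a * ev f (vec m x) + b * ev g (vec m y) ≤ ‖vec m x + vec m y‖ + ‖vec m x - vec m y‖ := by
  classical
  set U := x.support ∪ y.support with hU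
  have h1 := ev_le_norm ⟨_, isTest_comb hS ha hb hab hb1 f.2 g.2⟩ (vec m x + vec m y)
  have h2 := ev_le_norm ⟨_, isTest_comb hS ha hb hab hb1 f.2 (isTest_neg g.2)⟩ (vec m x - vec m y)
  have hxU : x.support ⊆ U := Finset.subset_union_left
  have hyU : y.support ⊆ U := Finset.subset_union_right
  rw [map_add, ev_vec _ x hxU, ev_vec _ y hyU] at h1
  rw [map_sub, ev_vec _ x hxU, ev_vec _ y hyU] at h2
  rw [ev_vec _ x hxU, ev_vec _ y hyU]
  refine le_trans (le_of_eq ?_) (add_le_add h1 h2)
  simp only [Finset.mul_sum, ← Finset.sum_add_distrib, ← Finset.sum_sub_distrib]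
  refine Finset.sum_congr rfl fun s _ => ?_
  by_cases hs : s ∈ S
  · rw [hy s hs, comb_mem hS a b _ _ s hs, comb_mem hS a b _ _ s hs]; ring
  · have := comb_sub_neg hS a b f.1 g.1 hs
    rw [hx s hs]
    linear_combination (-y s) * this

theorem mid_norms {m : PotentialModel} {S : Finset (List ℕ)} (hS : AncClosed S) {a b : ℝ}
    (ha : 0 ≤ a) (hb : 0 ≤ b) (hab : a ^ 2 + b ^ 2 ≤ 1) (hb1 : 2 * b ≤ 1)
    (x y : List ℕ →₀ ℝ) (hx : ∀ s ∉ S, x s = 0) (hy : ∀ s ∈ S, y s = 0) :
    2 * a * ‖vec m x‖ + b * ‖vec m y‖ ≤ ‖vec m x + vec m y‖ + ‖vec m x - vec m y‖ := by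
  set M := ‖vec m x + vec m y‖ + ‖vec m x - vec m y‖
  have h1 : ∀ g : PotentialTest m, 2 * a * ‖vec m x‖ + b * ev g (vec m y) ≤ M := by
    intro g
    have : ‖vec m ((2 * a) • x)‖ ≤ M - b * ev g (vec m y) := by
      refine norm_vec_le _ fun f => ?_
      rw [map_smul, map_smul, smul_eq_mul]
      linarith [mid_tests hS ha hb hab hb1 x y hx hy f g]
    rw [map_smul, norm_smul, Real.norm_of_nonneg (by positivity)] at this
    linarith
  have : ‖vec m (b • y)‖ ≤ M - 2 * a * ‖vec m x‖ := by
    refine norm_vec_le _ fun g => ?_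
    rw [map_smul, map_smul, smul_eq_mul]
    linarith [h1 g]
  rw [map_smul, norm_smul, Real.norm_of_nonneg hb] at this
  linarith

open Classical in
/-- coordinate functionals -/
noncomputable def cs (m : PotentialModel) (s : List ℕ) : Amb m →L[ℝ] ℝ :=
  if h : IsTest m (dlt s) then ev ⟨dlt s, h⟩ else 0

theorem coord_eq_zero {m : PotentialModel} {s : List ℕ} (h : ¬ IsTest m (dlt s)) :
    coordVector m s = 0 := by
  have h1 : ¬ (m ≠ .rootlessSibling ∨ s ≠ []) := fun h' => h (isTest_dlt h')
  simp only [not_or, not_not] at h1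
  obtain ⟨rfl, rfl⟩ := h1
  ext f
  exact f.2.2.1

theorem cs_coord (m : PotentialModel) (s u : List ℕ) :
    cs m s (coordVector m u) • coordVector m s = if u = s then coordVector m s else 0 := by
  unfold cs
  split_ifs with h1 h2 h2
  · rw [ev_coord]; simp [dlt, h2]
  · rw [ev_coord]; simp [dlt, h2]
  · simp [coord_eq_zero h1]
  · simp

/-- projection killing the coordinates in `S` -/
noncomputable def projOff (m : PotentialModel) (S : Finset (List ℕ)) : Amb m →L[ℝ] Amb m :=
  ContinuousLinearMap.id ℝ _ - ∑ s ∈ S, (cs m s).smulRight (coordVector m s)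

theorem projOff_apply (m : PotentialModel) (S : Finset (List ℕ)) (z : Amb m) :
    projOff m S z = z - ∑ s ∈ S, cs m s z • coordVector m s := by
  simp [projOff]

theorem projOff_coord (m : PotentialModel) (S : Finset (List ℕ)) (u : List ℕ) :
    projOff m S (coordVector m u) = if u ∈ S then 0 else coordVector m u := by
  classical
  rw [projOff_apply]
  simp only [cs_coord]
  rw [Finset.sum_ite_eq]
  split_ifs <;> simp

theorem projOff_vec (m : PotentialModel) (S : Finset (List ℕ)) (w : List ℕ →₀ ℝ) :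
    projOff m S (vec m w) = vec m (w.filter (· ∉ S)) := by
  classical
  induction w using Finsupp.induction_linear with
  | zero => rw [Finsupp.filter_zero]; simp
  | add f g hf hg => rw [map_add, map_add, hf, hg, Finsupp.filter_add, map_add]
  | single u c =>
    have h1 : vec m (Finsupp.single u c) = c • coordVector m u := by
      simp [vec]
    rw [h1, map_smul, projOff_coord]
    split_ifs with h
    · rw [Finsupp.filter_single_of_neg _ (by simpa using h)]; simp
    · rw [Finsupp.filter_single_of_pos (fun x => x ∉ S) h, h1]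

theorem span_eq_range_vec (m : PotentialModel) :
    Submodule.span ℝ (Set.range (coordVector m)) = LinearMap.range (vec m) :=
  (Finsupp.range_linearCombination ℝ).symm

theorem mid_linear {m : PotentialModel} {S : Finset (List ℕ)} (hS : AncClosed S) {a b : ℝ}
    (ha : 0 ≤ a) (hb : 0 ≤ b) (hab : a ^ 2 + b ^ 2 ≤ 1) (hb1 : 2 * b ≤ 1)
    (x : List ℕ →₀ ℝ) (hx : ∀ s ∉ S, x s = 0) (y : Amb m) (hy : y ∈ modelSpace m)
    (hyS : ∀ s ∈ S, cs m s y = 0) :
    2 * a * ‖vec m x‖ + b * ‖y‖ ≤ ‖vec m x + y‖ + ‖vec m x - y‖ := by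
  classical
  have hproj : projOff m S y = y := by
    rw [projOff_apply, Finset.sum_eq_zero fun s hs => by rw [hyS s hs, zero_smul], sub_zero]
  have hclosed : IsClosed {z : Amb m | 2 * a * ‖vec m x‖ + b * ‖projOff m S z‖ ≤
      ‖vec m x + projOff m S z‖ + ‖vec m x - projOff m S z‖} :=
    isClosed_le (by fun_prop) (by fun_prop)
  have hsub : (Submodule.span ℝ (Set.range (coordVector m)) : Set (Amb m)) ⊆
      {z : Amb m | 2 * a * ‖vec m x‖ + b * ‖projOff m S z‖ ≤
        ‖vec m x + projOff m S z‖ + ‖vec m x - projOff m S z‖} := by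
    intro z hz
    rw [span_eq_range_vec] at hz
    obtain ⟨w, rfl⟩ := hz
    simp only [Set.mem_ofPred_eq]
    rw [projOff_vec]
    exact mid_norms hS ha hb hab hb1 x _ hx fun s hs => by simp [hs]
  have := closure_minimal hsub hclosed hy
  simp only [Set.mem_ofPred_eq] at this
  rwa [hproj] at this

theorem mid_exact {m : PotentialModel} {S : Finset (List ℕ)} (hS : AncClosed S)
    (x : List ℕ →₀ ℝ) (hx : ∀ s ∉ S, x s = 0) (y : Amb m) (hy : y ∈ modelSpace m)
    (hyS : ∀ s ∈ S, cs m s y = 0) :
    √(‖vec m x‖ ^ 2 + ‖y‖ ^ 2 / 4) ≤ (‖vec m x + y‖ + ‖vec m x - y‖) / 2 := by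
  set A := ‖vec m x‖ with hA
  set B := ‖y‖ with hB
  have hA0 : 0 ≤ A := norm_nonneg _
  have hB0 : 0 ≤ B := norm_nonneg _
  set R := √(A ^ 2 + B ^ 2 / 4) with hR
  have hR0 : 0 ≤ R := Real.sqrt_nonneg _
  have hR2 : R ^ 2 = A ^ 2 + B ^ 2 / 4 := Real.sq_sqrt (by positivity)
  by_cases hRB : R ≤ B
  · have h1 : ‖(vec m x + y) - (vec m x - y)‖ ≤ ‖vec m x + y‖ + ‖vec m x - y‖ := norm_sub_le _ _
    have h2 : (vec m x + y) - (vec m x - y) = (2 : ℝ) • y := by rw [two_smul]; abel
    rw [h2, norm_smul, Real.norm_two] at h1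
    linarith
  · push Not at hRB
    have hRpos : 0 < R := lt_of_le_of_lt hB0 hRB
    have h := mid_linear hS (a := A / R) (b := B / 2 / R) (by positivity) (by positivity)
      (by rw [div_pow, div_pow, ← add_div, div_le_one (by positivity)]; linarith)
      (by rw [← mul_div_assoc, div_le_one hRpos]; linarith) x hx y hy hyS
    rw [← hA, ← hB] at h
    have h3 : 2 * (A / R) * A + B / 2 / R * B = 2 * R := by
      field_simp; linarith
    linarith

theorem exists_ancClosed (U : Finset (List ℕ)) : ∃ S : Finset (List ℕ), AncClosed S ∧ U ⊆ S := by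
  classical
  refine ⟨insert [] (U.biUnion fun s => s.tails.toFinset), ⟨Finset.mem_insert_self _ _, ?_⟩, ?_⟩
  · intro a v h
    rw [Finset.mem_insert] at h ⊢
    rcases h with h | h
    · exact absurd h (List.cons_ne_nil a v)
    · right
      simp only [Finset.mem_biUnion, List.mem_toFinset, List.mem_tails] at h ⊢
      obtain ⟨s, hs, hsuf⟩ := h
      exact ⟨s, hs, (List.suffix_cons a v).trans hsuf⟩
  · intro s hs
    refine Finset.mem_insert_of_mem ?_
    simp only [Finset.mem_biUnion, List.mem_toFinset, List.mem_tails]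
    exact ⟨s, hs, List.suffix_refl s⟩

/-! ### path vectors -/

/-- the sum of the coordinate vectors along the root path -/
noncomputable def pathVec (m : PotentialModel) : List ℕ → Amb m
  | [] => coordVector m []
  | a :: v => pathVec m v + coordVector m (a :: v)

theorem ev_pathVec {m : PotentialModel} (f : PotentialTest m) :
    ∀ s, ev f (pathVec m s) = pathPotential f.1 s
  | [] => rfl
  | a :: v => by simp only [pathVec, pathPotential]; rw [map_add, ev_pathVec f v, ev_coord]

theorem norm_pathVec_le (m : PotentialModel) (s : List ℕ) : ‖pathVec m s‖ ≤ 1 := by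
  refine lp.norm_le_of_forall_le zero_le_one fun f => ?_
  rw [← ev_apply, ev_pathVec, Real.norm_eq_abs]
  exact f.2.1 s

theorem one_le_norm_coord (m : PotentialModel) (n : ℕ) (s : List ℕ) :
    1 ≤ ‖coordVector m (n :: s)‖ := by
  have := ev_le_norm ⟨dlt (n :: s), isTest_dlt (m := m) (Or.inr (List.cons_ne_nil n s))⟩
    (coordVector m (n :: s))
  rw [ev_coord] at this
  simpa [dlt] using this

theorem norm_sum_children_le (m : PotentialModel) (s : List ℕ) (A : Finset ℕ) (a : ℕ → ℝ) :
    ‖∑ n ∈ A, a n • coordVector m (n :: s)‖ ≤ 1 * √(∑ n ∈ A, a n ^ 2) := by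
  rw [one_mul]
  refine lp.norm_le_of_forall_le (Real.sqrt_nonneg _) fun f => ?_
  rw [← ev_apply, map_sum, Real.norm_eq_abs]
  simp only [map_smul, ev_coord, smul_eq_mul]
  refine Real.abs_le_sqrt ?_
  calc (∑ n ∈ A, a n * f.1 (n :: s)) ^ 2
      ≤ (∑ n ∈ A, a n ^ 2) * ∑ n ∈ A, f.1 (n :: s) ^ 2 := Finset.sum_mul_sq_le_sq_mul_sq _ _ _
    _ ≤ (∑ n ∈ A, a n ^ 2) * 1 := by
        gcongr
        exact sum_children_sq_le f.2 s A
    _ = _ := mul_one _

theorem coord_mem (m : PotentialModel) (s : List ℕ) : coordVector m s ∈ modelSpace m :=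
  Submodule.le_topologicalClosure _ (Submodule.subset_span ⟨s, rfl⟩)

theorem pathVec_mem (m : PotentialModel) : ∀ s, pathVec m s ∈ modelSpace m
  | [] => coord_mem m []
  | _ :: v => (modelSpace m).add_mem (pathVec_mem m v) (coord_mem m _)

theorem vec_mem (m : PotentialModel) (x : List ℕ →₀ ℝ) : vec m x ∈ modelSpace m :=
  Submodule.le_topologicalClosure _ (by rw [span_eq_range_vec]; exact ⟨x, rfl⟩)

end Crest.Agent.R125
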