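import Mathlib
import Crest.Agent.R125.Tree
import Crest.Agent.R125.LpSum

set_option autoImplicit false

open Crest.AnalysisR Filter Topology
open Crest.AnalysisR.TreePotential

namespace Crest.Agent.R125

/-- vertices of height at most `h` -/
abbrev Dom (h : ℕ) : Type := {s : List ℕ // s.length ≤ h}

/-- square-summable arrays on the vertices of height at most `h` -/
abbrev Hil (h : ℕ) : Type := lp (fun _ : Dom h => ℝ) 2

theorem sum_res_le (h : ℕ) (f : PotentialTest .global) (A : Finset (Dom h)) :
    ∑ s ∈ A, ‖f.1 s.1‖ ^ 2 ≤ 1 := by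
  have := f.2.2 (A.map (Function.Embedding.subtype _))
  rw [Finset.sum_map] at this
  simpa using this

/-- restriction of a global test -/
noncomputable def res (h : ℕ) (f : PotentialTest .global) : Hil h :=
  ⟨fun s => f.1 s.1, memlp_two (sum_res_le h f)⟩

theorem norm_res_le (h : ℕ) (f : PotentialTest .global) : ‖res h f‖ ≤ 1 := by
  have h1 : ‖res h f‖ ^ 2 ≤ 1 :=
    hasSum_le_of_sum_le (hasSum_sq (res h f)) (sum_res_le h f)
  nlinarith [norm_nonneg (res h f)]

theorem abs_inner_res_le (h : ℕ) (f : PotentialTest .global) (x : Hil h) :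
    ‖inner ℝ (res h f) x‖ ≤ ‖x‖ :=
  (norm_inner_le_norm _ _).trans (mul_le_of_le_one_left (norm_nonneg _) (norm_res_le h f))

/-- the embedding of the Hilbert space into the bounded functions on the tests -/
noncomputable def emb (h : ℕ) : Hil h →L[ℝ] Amb .global :=
  LinearMap.mkContinuous
    { toFun := fun x => ⟨fun f => inner ℝ (res h f) x, memℓp_infty ⟨‖x‖, by
        rintro _ ⟨f, rfl⟩
        exact abs_inner_res_le h f x⟩⟩
      map_add' := fun x y => by
        ext f
        exact inner_add_right _ _ _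
      map_smul' := fun c x => by
        ext f
        exact inner_smul_right _ _ _ } 1
    (fun x => by
      rw [one_mul]
      exact lp.norm_le_of_forall_le (norm_nonneg _) fun f => abs_inner_res_le h f x)

theorem ev_emb (h : ℕ) (x : Hil h) (f : PotentialTest .global) :
    ev f (emb h x) = inner ℝ (res h f) x := rfl

theorem emb_single (h : ℕ) (s : Dom h) (c : ℝ) :
    emb h (lp.single 2 s c) = c • coordVector .global s.1 := by
  ext f
  rw [← ev_apply, ← ev_apply, ev_emb, lp.inner_single_right, map_smul, ev_coord]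
  simp [res]

theorem abs_pot_le {h : ℕ} {f : List ℕ → ℝ} {c : ℝ} (h1 : ∀ u, |f u| ≤ c)
    (h2 : ∀ u, h < u.length → f u = 0) :
    ∀ s : List ℕ, |pathPotential f s| ≤ ((min s.length h : ℕ) + 1) * c
  | [] => by simpa [pathPotential] using h1 []
  | a :: v => by
    have ih := abs_pot_le h1 h2 v
    simp only [pathPotential]
    by_cases hv : h < (a :: v).length
    · rw [h2 _ hv, add_zero]
      have : min (a :: v).length h = min v.length h := by
        simp only [List.length_cons] at hv ⊢; omega
      rw [this]; exact ih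
    · have : min (a :: v).length h = min v.length h + 1 := by
        simp only [List.length_cons] at hv ⊢; omega
      rw [this]
      push_cast at ih ⊢
      have := abs_add_le (pathPotential f v) (f (a :: v))
      linarith [h1 (a :: v)]

theorem norm_le_emb (h : ℕ) (x : Hil h) : ‖x‖ ≤ ((h : ℝ) + 1) * ‖emb h x‖ := by
  classical
  by_cases hx : x = 0
  · simp [hx]
  have hpos : 0 < ‖x‖ := norm_pos_iff.mpr hx
  set c : ℝ := (((h : ℝ) + 1) * ‖x‖)⁻¹ with hc
  have hcpos : 0 < c := by positivity
  let f : List ℕ → ℝ := fun u => if hu : u.length ≤ h then c * x ⟨u, hu⟩ else 0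
  have hf1 : ∀ u, |f u| ≤ ((h : ℝ) + 1)⁻¹ := by
    intro u
    simp only [f]
    split_ifs with hu
    · rw [abs_mul, abs_of_pos hcpos]
      have : |x ⟨u, hu⟩| ≤ ‖x‖ := lp.norm_apply_le_norm (by norm_num) x ⟨u, hu⟩
      calc c * |x ⟨u, hu⟩| ≤ c * ‖x‖ := by gcongr
        _ = _ := by rw [hc]; field_simp
    · simp only [abs_zero]; positivity
  have hf : IsTest .global f := by
    refine ⟨fun s => (abs_pot_le (h := h) hf1 (fun u hu => by simp [f, not_le.mpr hu]) s).trans ?_,
      fun A => ?_⟩
    · have : ((min s.length h : ℕ) : ℝ) ≤ h := by exact_mod_cast min_le_right _ _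
      calc (((min s.length h : ℕ) : ℝ) + 1) * ((h : ℝ) + 1)⁻¹
          ≤ ((h : ℝ) + 1) * ((h : ℝ) + 1)⁻¹ := by gcongr
        _ = 1 := by field_simp
    · have h1 : ∑ u ∈ A, f u ^ 2 = ∑ u ∈ A.filter (fun u => u.length ≤ h), f u ^ 2 := by
        rw [Finset.sum_filter]
        refine Finset.sum_congr rfl fun u _ => ?_
        split_ifs with hu
        · rfl
        · simp [f, hu]
      rw [h1, ← Finset.sum_subtype_eq_sum_filter]
      have h2 : ∑ u ∈ A.subtype (fun u => u.length ≤ h), f u.1 ^ 2 =
          c ^ 2 * ∑ u ∈ A.subtype (fun u => u.length ≤ h), ‖x u‖ ^ 2 := by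
        rw [Finset.mul_sum]
        refine Finset.sum_congr rfl fun u _ => ?_
        simp only [f, dif_pos u.2, mul_pow, Real.norm_eq_abs, sq_abs]
      rw [h2]
      calc c ^ 2 * ∑ u ∈ A.subtype (fun u => u.length ≤ h), ‖x u‖ ^ 2 ≤ c ^ 2 * ‖x‖ ^ 2 := by
            gcongr; exact sum_sq_le x _
        _ = (((h : ℝ) + 1)⁻¹) ^ 2 := by rw [hc]; field_simp
        _ ≤ 1 := by
            refine pow_le_one₀ (by positivity) (inv_le_one_of_one_le₀ ?_)
            linarith [Nat.cast_nonneg (α := ℝ) h]
  have h3 : res h ⟨f, hf⟩ = c • x := by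
    ext u
    simp only [res, f, dif_pos u.2, lp.coeFn_smul, Pi.smul_apply, smul_eq_mul]
  have h4 := ev_le_norm ⟨f, hf⟩ (emb h x)
  rw [ev_emb, h3, real_inner_smul_left, real_inner_self_eq_norm_sq] at h4
  have h5 : c * ‖x‖ ^ 2 = ‖x‖ / ((h : ℝ) + 1) := by rw [hc]; field_simp
  rw [h5, div_le_iff₀ (by positivity)] at h4
  linarith

theorem emb_antilipschitz (h : ℕ) : AntilipschitzWith ((h : NNReal) + 1) (emb h) :=
  (emb h).antilipschitz_of_bound fun x => by simpa using norm_le_emb h x

theorem isClosed_range_emb (h : ℕ) : IsClosed (Set.range (emb h)) :=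
  (emb_antilipschitz h).isClosed_range (emb h).uniformContinuous

/-- the height-`h` space -/
noncomputable abbrev XH (h : ℕ) : Submodule ℝ (Amb .global) := (emb h).range

instance completeXH (h : ℕ) : CompleteSpace (XH h) := (isClosed_range_emb h).completeSpace_coe

theorem refl_XH (h : ℕ) : Refl (XH h) :=
  refl_of_equiv ((emb h).equivRange (emb_antilipschitz h).injective (isClosed_range_emb h))

theorem separable_XH (h : ℕ) : TopologicalSpace.SeparableSpace (XH h) := by
  have h1 : TopologicalSpace.SeparableSpace (Hil h) := separable_lp fun _ => inferInstance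
  have h2 := (TopologicalSpace.isSeparable_univ_iff.mpr h1).image (emb h).continuous
  rw [Set.image_univ] at h2
  exact h2.separableSpace

theorem hasSum_emb (h : ℕ) (x : Hil h) :
    HasSum (fun s : Dom h => x s • coordVector .global s.1) (emb h x) := by
  classical
  have := (emb h).hasSum (lp.hasSum_single (p := 2) (by norm_num) x)
  simpa only [emb_single] using this

theorem XH_le (h : ℕ) : XH h ≤ modelSpace .global := by
  rintro _ ⟨x, rfl⟩
  refine (Submodule.isClosed_topologicalClosure _).mem_of_tendsto (hasSum_emb h x)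
    (Eventually.of_forall fun A => ?_)
  exact Submodule.sum_mem _ fun s _ => Submodule.smul_mem _ _ (coord_mem _ _)

theorem coord_mem_XH {h : ℕ} {s : List ℕ} (hs : s.length ≤ h) : coordVector .global s ∈ XH h := by
  classical
  exact ⟨lp.single 2 (⟨s, hs⟩ : Dom h) (1 : ℝ), by
    have := emb_single h ⟨s, hs⟩ 1
    rw [one_smul] at this
    exact this⟩

theorem pathVec_mem_XH {h : ℕ} : ∀ {s : List ℕ}, s.length ≤ h → pathVec .global s ∈ XH h
  | [], hs => coord_mem_XH hs
  | _ :: v, hs => (XH h).add_mem (pathVec_mem_XH (s := v) (by simp at hs; omega)) (coord_mem_XH hs)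

theorem mpx_XH (h : ℕ) : MPX (XH h) := by
  classical
  rintro ⟨_, x, rfl⟩ η hη
  obtain ⟨A, hA⟩ := (Metric.tendsto_nhds.mp (hasSum_emb h x) η hη).exists
  rw [dist_comm, dist_eq_norm] at hA
  set c : List ℕ →₀ ℝ := ∑ s ∈ A, Finsupp.single s.1 (x s) with hc
  have hvec : vec .global c = ∑ s ∈ A, x s • coordVector .global s.1 := by
    rw [hc, map_sum]
    refine Finset.sum_congr rfl fun s _ => ?_
    simp [vec]
  have hmem : vec .global c ∈ XH h := by
    rw [hvec]
    exact Submodule.sum_mem _ fun s _ => Submodule.smul_mem _ _ (coord_mem_XH s.2)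
  obtain ⟨S, hS, hcS⟩ := exists_ancClosed c.support
  refine ⟨⟨vec .global c, hmem⟩, ?_,
    {y : XH h | ∀ s : S, (cs .global s ∘L (XH h).subtypeL) y = 0}, cof_forall _,
    fun y hy => ?_⟩
  · rw [← hvec] at hA
    exact hA.le
  · exact mid_exact hS c (fun s hs => by
      by_contra hne
      exact hs (hcS (Finsupp.mem_support_iff.mpr hne))) y.1 (XH_le h y.2) (fun s hs => hy ⟨s, hs⟩)

/-- the space -/
abbrev Big : Type := lp (fun h : ℕ => XH h) 2

theorem mp_Big : MP Big := mp_of_dense (mpx_lp mpx_XH)

theorem refl_Big : Refl Big := refl_lp refl_XH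

theorem separable_Big : TopologicalSpace.SeparableSpace Big := separable_lp separable_XH

/-- the tree of height `h` in the space -/
noncomputable def bigTree (h : ℕ) (s : List ℕ) : Big :=
  if hs : s.length ≤ h then lp.single 2 h ⟨pathVec .global s, pathVec_mem_XH hs⟩ else 0

theorem norm_bigTree_le (h : ℕ) (s : List ℕ) (hs : s.length ≤ h) : ‖bigTree h s‖ ≤ 1 := by
  rw [bigTree, dif_pos hs, lp.norm_single (by norm_num)]
  exact norm_pathVec_le _ s

theorem bigTree_sub (h : ℕ) (s : List ℕ) (n : ℕ) (hs : s.length < h) :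
    bigTree h (n :: s) - bigTree h s = lp.singleContinuousLinearMap ℝ (fun h : ℕ => XH h) 2 h
      ⟨coordVector .global (n :: s), coord_mem_XH hs⟩ := by
  rw [bigTree, bigTree, dif_pos (show (n :: s).length ≤ h from hs), dif_pos hs.le,
    ← lp.single_sub, lp.singleContinuousLinearMap_apply]
  congr 1
  ext1
  simp [pathVec]

theorem norm_bigTree_incr (h : ℕ) (s : List ℕ) (n : ℕ) (hs : s.length < h) :
    1 ≤ ‖bigTree h (n :: s) - bigTree h s‖ := by
  rw [bigTree_sub h s n hs, lp.singleContinuousLinearMap_apply, lp.norm_single (by norm_num)]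
  exact one_le_norm_coord _ n s

theorem norm_bigTree_sum (h : ℕ) (s : List ℕ) (hs : s.length < h) (A : Finset ℕ) (a : ℕ → ℝ) :
    ‖∑ n ∈ A, a n • (bigTree h (n :: s) - bigTree h s)‖ ≤ 1 * √(∑ n ∈ A, a n ^ 2) := by
  simp only [bigTree_sub h s _ hs, ← map_smul, ← map_sum]
  rw [lp.singleContinuousLinearMap_apply, lp.norm_single (by norm_num), Submodule.coe_norm,
    Submodule.coe_sum]
  exact norm_sum_children_le _ s A a

end Crest.Agent.R125
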