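import Mathlib
import Crest.Prelude.Def_DaugavetL1
import Crest.Agent.R125.Basic

set_option autoImplicit false

open Crest.AnalysisR Filter Topology MeasureTheory

namespace Crest.Agent.R125

variable {Ω : Type} [MeasurableSpace Ω] {P : Measure Ω}

/-- sign of an `L¹` class -/
noncomputable def sgn (g : Lp ℝ 1 P) (z : Ω) : ℝ := if 0 ≤ (g : Ω → ℝ) z then 1 else -1

theorem measurable_sgn (g : Lp ℝ 1 P) : Measurable (sgn g) := by
  unfold sgn
  exact Measurable.ite (measurableSet_le measurable_const (Lp.stronglyMeasurable g).measurable)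
    measurable_const measurable_const

theorem abs_sgn (g : Lp ℝ 1 P) (z : Ω) : |sgn g z| = 1 := by
  unfold sgn; split_ifs <;> simp

theorem sgn_mul_self (g : Lp ℝ 1 P) (z : Ω) : sgn g z * (g : Ω → ℝ) z = |(g : Ω → ℝ) z| := by
  unfold sgn; split_ifs with h
  · rw [one_mul, abs_of_nonneg h]
  · rw [abs_of_neg (not_le.mp h)]; ring

theorem integrable_sgn_mul (g y : Lp ℝ 1 P) :
    Integrable (fun z => sgn g z * (y : Ω → ℝ) z) P := by
  refine Integrable.mono (L1.integrable_coeFn y)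
    ((measurable_sgn g).aestronglyMeasurable.mul (Lp.aestronglyMeasurable y)) ?_
  filter_upwards with z
  rw [norm_mul, Real.norm_eq_abs, abs_sgn, one_mul]

/-- the functional `y ↦ ∫ sgn g * y` -/
noncomputable def sgnFun (g : Lp ℝ 1 P) : Lp ℝ 1 P →L[ℝ] ℝ :=
  LinearMap.mkContinuous
    { toFun := fun y => ∫ z, sgn g z * (y : Ω → ℝ) z ∂P
      map_add' := fun y y' => by
        rw [← integral_add (integrable_sgn_mul g y) (integrable_sgn_mul g y')]
        refine integral_congr_ae ?_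
        filter_upwards [Lp.coeFn_add y y'] with z hz
        rw [hz, Pi.add_apply, mul_add]
      map_smul' := fun c y => by
        simp only [RingHom.id_apply, smul_eq_mul]
        rw [← integral_const_mul]
        refine integral_congr_ae ?_
        filter_upwards [Lp.coeFn_smul c y] with z hz
        rw [hz, Pi.smul_apply, smul_eq_mul]; ring } 1
    (fun y => by
      simp only [LinearMap.coe_mk, AddHom.coe_mk, one_mul]
      rw [L1.norm_eq_integral_norm]
      refine (norm_integral_le_integral_norm _).trans (le_of_eq ?_)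
      refine integral_congr_ae ?_
      filter_upwards with z
      rw [norm_mul, Real.norm_eq_abs, abs_sgn, one_mul])

theorem sgnFun_apply (g y : Lp ℝ 1 P) : sgnFun g y = ∫ z, sgn g z * (y : Ω → ℝ) z ∂P := rfl

theorem mass_on_bad_set [IsProbabilityMeasure P] (g y : Lp ℝ 1 P) (hy : ‖y‖ = 1)
    (h0 : sgnFun g y = 0) {a : ℝ} (ha : 0 < a) :
    1 / 2 - a ≤ ∫ z in {z | a < |(y : Ω → ℝ) z - (g : Ω → ℝ) z|}, |(y : Ω → ℝ) z| ∂P := by
  set A := {z | a < |(y : Ω → ℝ) z - (g : Ω → ℝ) z|} with hA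
  have hAm : MeasurableSet A :=
    measurableSet_lt measurable_const
      ((Lp.stronglyMeasurable y).measurable.sub (Lp.stronglyMeasurable g).measurable).abs
  have hyi : Integrable (fun z => |(y : Ω → ℝ) z|) P := (L1.integrable_coeFn y).abs
  have h1 : ∫ z, |(y : Ω → ℝ) z| ∂P = 1 := by
    rw [← hy, L1.norm_eq_integral_norm]; rfl
  have h2 : ∫ z, |(y : Ω → ℝ) z| ∂P ≤ ∫ z, (sgn g z * (y : Ω → ℝ) z + 2 * a +
      2 * A.indicator (fun z => |(y : Ω → ℝ) z|) z) ∂P := by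
    refine integral_mono hyi (((integrable_sgn_mul g y).add (integrable_const _)).add
      ((hyi.indicator hAm).const_mul 2)) fun z => ?_
    have e1 : -|(y : Ω → ℝ) z| ≤ sgn g z * (y : Ω → ℝ) z := by
      have := neg_abs_le (sgn g z * (y : Ω → ℝ) z)
      rwa [abs_mul, abs_sgn, one_mul] at this
    by_cases hz : z ∈ A
    · simp only [Set.indicator_of_mem hz]
      linarith
    · simp only [Set.indicator_of_notMem hz]
      have e2 : |(y : Ω → ℝ) z - (g : Ω → ℝ) z| ≤ a := not_lt.mp hz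
      have e3 := sgn_mul_self g z
      have e4 : -|(y : Ω → ℝ) z - (g : Ω → ℝ) z| ≤ sgn g z * ((y : Ω → ℝ) z - (g : Ω → ℝ) z) := by
        have := neg_abs_le (sgn g z * ((y : Ω → ℝ) z - (g : Ω → ℝ) z))
        rwa [abs_mul, abs_sgn, one_mul] at this
      have e5 : |(y : Ω → ℝ) z| ≤ |(y : Ω → ℝ) z - (g : Ω → ℝ) z| + |(g : Ω → ℝ) z| := by
        simpa using abs_add_le ((y : Ω → ℝ) z - (g : Ω → ℝ) z) ((g : Ω → ℝ) z)
      rw [mul_sub] at e4
      linarith
  have hi1 : Integrable (fun z => sgn g z * (y : Ω → ℝ) z + 2 * a) P :=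
    (integrable_sgn_mul g y).add (integrable_const _)
  rw [integral_add hi1
      ((hyi.indicator hAm).const_mul 2), integral_add (integrable_sgn_mul g y) (integrable_const _),
      ← sgnFun_apply, h0, integral_const_mul, integral_const_mul, integral_indicator hAm, h1] at h2
  simp at h2
  linarith

theorem avg_lower (x y : Lp ℝ 1 P) {t : ℝ} (ht : 0 ≤ t) {A : Set Ω} (hAm : MeasurableSet A) :
    ‖x‖ - ∫ z in A, |(x : Ω → ℝ) z| ∂P + t * ∫ z in A, |(y : Ω → ℝ) z| ∂P ≤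
      (‖x + t • y‖ + ‖x - t • y‖) / 2 := by
  have hxi : Integrable (fun z => |(x : Ω → ℝ) z|) P := (L1.integrable_coeFn x).abs
  have hyi : Integrable (fun z => |(y : Ω → ℝ) z|) P := (L1.integrable_coeFn y).abs
  have hpi : Integrable (fun z => ‖((x + t • y : Lp ℝ 1 P) : Ω → ℝ) z‖) P :=
    (L1.integrable_coeFn _).norm
  have hmi : Integrable (fun z => ‖((x - t • y : Lp ℝ 1 P) : Ω → ℝ) z‖) P :=
    (L1.integrable_coeFn _).norm
  rw [L1.norm_eq_integral_norm x, L1.norm_eq_integral_norm (x + t • y),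
    L1.norm_eq_integral_norm (x - t • y), ← integral_add hpi hmi, ← integral_div,
    ← integral_indicator hAm, ← integral_indicator hAm, ← integral_const_mul]
  have hxi' : Integrable (fun z => ‖(x : Ω → ℝ) z‖) P := hxi
  have hi1 : Integrable (fun z => ‖(x : Ω → ℝ) z‖ - A.indicator (fun z => |(x : Ω → ℝ) z|) z) P :=
    hxi'.sub (hxi.indicator hAm)
  rw [← integral_sub hxi' (hxi.indicator hAm),
    ← integral_add hi1 ((hyi.indicator hAm).const_mul t)]
  refine integral_mono_ae (hi1.add ((hyi.indicator hAm).const_mul t))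
    ((hpi.add hmi).div_const 2) ?_
  filter_upwards [Lp.coeFn_add x (t • y), Lp.coeFn_sub x (t • y), Lp.coeFn_smul t y] with z h1 h2 h3
  rw [h1, h2]
  simp only [Pi.add_apply, Pi.sub_apply, h3, Pi.smul_apply, smul_eq_mul, Real.norm_eq_abs]
  set u := (x : Ω → ℝ) z
  set v := (y : Ω → ℝ) z
  by_cases hz : z ∈ A
  · simp only [Set.indicator_of_mem hz]
    have e1 : |(u + t * v) - (u - t * v)| ≤ |u + t * v| + |u - t * v| := abs_sub _ _
    have e2 : (u + t * v) - (u - t * v) = 2 * (t * v) := by ring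
    rw [e2, abs_mul, abs_mul, abs_of_nonneg ht, abs_two] at e1
    linarith
  · simp only [Set.indicator_of_notMem hz]
    have e1 : |(u + t * v) + (u - t * v)| ≤ |u + t * v| + |u - t * v| := abs_add_le _ _
    have e2 : (u + t * v) + (u - t * v) = 2 * u := by ring
    rw [e2, abs_mul, abs_two] at e1
    linarith

theorem abs_cont (x : Lp ℝ 1 P) {η : ℝ} (hη : 0 < η) :
    ∃ δ : ℝ, 0 < δ ∧ ∀ A : Set Ω, P A < ENNReal.ofReal δ → ∫ z in A, |(x : Ω → ℝ) z| ∂P ≤ η := by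
  have hxi := L1.integrable_coeFn x
  obtain ⟨δ, hδ, h⟩ := exists_pos_setLIntegral_lt_of_measure_lt (f := fun z => ‖(x : Ω → ℝ) z‖ₑ)
    hxi.2.ne (ε := ENNReal.ofReal η) (by simpa using hη)
  obtain ⟨r, hr0, hr⟩ : ∃ r : ℝ, 0 < r ∧ ENNReal.ofReal r ≤ δ := by
    by_cases htop : δ = ⊤
    · exact ⟨1, one_pos, by simp [htop]⟩
    · exact ⟨δ.toReal, ENNReal.toReal_pos hδ.ne' htop, by rw [ENNReal.ofReal_toReal htop]⟩
  refine ⟨r, hr0, fun A hA => ?_⟩
  have h1 := h A (hA.trans_le hr)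
  have h2 : ∫ z in A, |(x : Ω → ℝ) z| ∂P = (∫⁻ z in A, ‖(x : Ω → ℝ) z‖ₑ ∂P).toReal := by
    rw [← integral_norm_eq_lintegral_enorm hxi.1.restrict]; rfl
  rw [h2]
  exact ENNReal.toReal_le_of_le_ofReal hη.le h1.le

theorem L1_midpoint_lower [IsProbabilityMeasure P] (E : Submodule ℝ (Lp ℝ 1 P))
    (htb : L1Subspace.UnitBallTotallyBoundedInMeasure P E) (x : E) (hx : ‖x‖ = 1)
    {t : ℝ} (ht : 0 < t) {η : ℝ} (hη : 0 < η) :
    ∃ F : Set E, Cof F ∧ ∀ y ∈ F, ‖y‖ = 1 →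
      t / 2 - η ≤ (‖x + t • y‖ + ‖x - t • y‖) / 2 - 1 := by
  obtain ⟨δ, hδ, hδx⟩ := abs_cont (x : Lp ℝ 1 P) (half_pos hη)
  obtain ⟨s, -, hs⟩ := htb (min δ (η / 2 / t)) (lt_min hδ (by positivity))
  refine ⟨{y : E | ∀ g : s, (sgnFun (g : Lp ℝ 1 P) ∘L E.subtypeL) y = 0}, cof_forall _, ?_⟩
  intro y hyF hy
  obtain ⟨g, hgs, hg⟩ := hs y y.2 hy.le
  have h0 : sgnFun g (y : Lp ℝ 1 P) = 0 := hyF ⟨g, hgs⟩
  unfold L1Subspace.measureDist at hg
  obtain ⟨a, ⟨ha0, ha1⟩, ha2⟩ := exists_lt_of_csInf_lt (Set.nonempty_of_mem (x := (2 : ℝ))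
    (And.intro (by norm_num) (lt_of_le_of_lt prob_le_one (by simp)))) hg
  set A := {z | a < |((y : Lp ℝ 1 P) : Ω → ℝ) z - (g : Ω → ℝ) z|} with hA
  have hAm : MeasurableSet A :=
    measurableSet_lt measurable_const
      ((Lp.stronglyMeasurable (y : Lp ℝ 1 P)).measurable.sub
        (Lp.stronglyMeasurable g).measurable).abs
  have h1 := mass_on_bad_set g (y : Lp ℝ 1 P) hy h0 ha0
  have h2 := avg_lower (x : Lp ℝ 1 P) (y : Lp ℝ 1 P) ht.le hAm
  have h3 := hδx A (ha1.trans_le (ENNReal.ofReal_le_ofReal (ha2.le.trans (min_le_left _ _))))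
  have h4 : a ≤ η / 2 / t := ha2.le.trans (min_le_right _ _)
  rw [le_div_iff₀ ht] at h4
  have h5 : ‖(x : Lp ℝ 1 P)‖ = 1 := hx
  have h6 : ‖x + t • y‖ = ‖(x : Lp ℝ 1 P) + t • (y : Lp ℝ 1 P)‖ := rfl
  have h7 : ‖x - t • y‖ = ‖(x : Lp ℝ 1 P) - t • (y : Lp ℝ 1 P)‖ := rfl
  rw [h6, h7]
  rw [← hA] at h1
  have h8 : t * (1 / 2 - a) ≤ t * ∫ z in A, |((y : Lp ℝ 1 P) : Ω → ℝ) z| ∂P := by gcongr
  nlinarith

end Crest.Agent.R125
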