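import Mathlib
import Crest.Agent.R125.Tree
import Crest.Agent.R125.Mid

set_option autoImplicit false

open Crest.AnalysisR Filter Topology
open Crest.AnalysisR.TreePotential

namespace Crest.Agent.R125

theorem exists_vec_near {m : PotentialModel} (x : Amb m) (hx : x ∈ modelSpace m) {η : ℝ}
    (hη : 0 < η) : ∃ c : List ℕ →₀ ℝ, ‖x - vec m c‖ ≤ η := by
  have h1 : x ∈ closure (Submodule.span ℝ (Set.range (coordVector m)) : Set (Amb m)) := hx
  rw [Metric.mem_closure_iff] at h1
  obtain ⟨z, hz, hd⟩ := h1 η hη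
  rw [span_eq_range_vec] at hz
  obtain ⟨c, rfl⟩ := hz
  exact ⟨c, by rw [← dist_eq_norm]; exact hd.le⟩

theorem mp_model (m : PotentialModel) : MP (modelSpace m) := by
  refine mp_of_dense fun x η hη => ?_
  obtain ⟨c, hc⟩ := exists_vec_near x.1 x.2 hη
  obtain ⟨S, hS, hcS⟩ := exists_ancClosed c.support
  refine ⟨⟨vec m c, vec_mem m c⟩, hc,
    {y : modelSpace m | ∀ s : S, (cs m s ∘L (modelSpace m).subtypeL) y = 0}, cof_forall _,
    fun y hy => ?_⟩
  exact mid_exact hS c (fun s hs => by
    by_contra hne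
    exact hs (hcS (Finsupp.mem_support_iff.mpr hne))) y.1 y.2 (fun s hs => hy ⟨s, hs⟩)

theorem separable_model (m : PotentialModel) : TopologicalSpace.SeparableSpace (modelSpace m) := by
  have h : TopologicalSpace.IsSeparable (modelSpace m : Set (Amb m)) :=
    ((Set.countable_range (coordVector m)).isSeparable.span (R := ℝ)).closure
  exact h.separableSpace

/-- path vectors inside the model space -/
noncomputable def pathVecM (m : PotentialModel) (s : List ℕ) : modelSpace m :=
  ⟨pathVec m s, pathVec_mem m s⟩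

theorem pathVecM_sub (m : PotentialModel) (n : ℕ) (s : List ℕ) :
    ((pathVecM m (n :: s) - pathVecM m s : modelSpace m) : Amb m) = coordVector m (n :: s) := by
  simp [pathVecM, pathVec]

theorem norm_incr_model (m : PotentialModel) (n : ℕ) (s : List ℕ) :
    1 ≤ ‖pathVecM m (n :: s) - pathVecM m s‖ := by
  rw [Submodule.coe_norm, pathVecM_sub]
  exact one_le_norm_coord m n s

theorem norm_sum_model (m : PotentialModel) (s : List ℕ) (A : Finset ℕ) (a : ℕ → ℝ) :
    ‖∑ n ∈ A, a n • (pathVecM m (n :: s) - pathVecM m s)‖ ≤ 1 * √(∑ n ∈ A, a n ^ 2) := by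
  rw [Submodule.coe_norm, Submodule.coe_sum]
  simp only [Submodule.coe_smul, pathVecM_sub]
  exact norm_sum_children_le m s A a

end Crest.Agent.R125
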