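import Mathlib
import Crest.Prelude.Def_TreeProducts
import Crest.Agent.R125.Basic

set_option autoImplicit false

open Crest.AnalysisR Filter Topology MeasureTheory ProbabilityTheory
open Crest.AnalysisR.TreeProduct

namespace Crest.Agent.R125

/-- non-root vertices on the root path -/
def anc : List ℕ → Finset (List ℕ)
  | [] => ∅
  | a :: v => insert (a :: v) (anc v)

theorem length_le_of_mem_anc : ∀ (v u : List ℕ), u ∈ anc v → u.length ≤ v.length
  | [], u, h => by simp [anc] at h
  | a :: v, u, h => by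
    simp only [anc, Finset.mem_insert] at h
    rcases h with rfl | h
    · exact le_rfl
    · have := length_le_of_mem_anc v u h
      simp only [List.length_cons]; omega

theorem cons_notMem_anc (a : ℕ) (v : List ℕ) : a :: v ∉ anc v := fun h => by
  have := length_le_of_mem_anc v _ h
  simp at this

variable {Ω : Type} [MeasurableSpace Ω] {μ : Measure Ω} {W : List ℕ → Ω → ℝ} {ν : Measure ℝ}

omit [MeasurableSpace Ω] in
theorem pathProduct_eq (W : List ℕ → Ω → ℝ) (z : Ω) :
    ∀ v : List ℕ, pathProduct W v z = ∏ u ∈ anc v, W u z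
  | [] => by simp [pathProduct, anc]
  | a :: v => by
    simp only [pathProduct, anc]
    rw [Finset.prod_insert (cons_notMem_anc a v), pathProduct_eq W z v, mul_comm]

theorem measurable_pathProduct (hm : ∀ v, Measurable (W v)) :
    ∀ v : List ℕ, Measurable (pathProduct W v)
  | [] => measurable_const
  | a :: v => (measurable_pathProduct hm v).mul (hm (a :: v))

theorem indep_children (hm : ∀ v, Measurable (W v)) (hi : iIndepFun W μ) (v : List ℕ)
    (A : Finset ℕ) (ψ : ℕ → ℝ → ℝ) (hψ : ∀ n, Measurable (ψ n)) :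
    IndepFun (pathProduct W v) (fun z => ∑ n ∈ A, ψ n (W (n :: v) z)) μ := by
  classical
  set T : Finset (List ℕ) := A.image (· :: v) with hT
  have hdisj : Disjoint (anc v) T := by
    rw [Finset.disjoint_right]
    intro u hu
    obtain ⟨n, -, rfl⟩ := Finset.mem_image.mp hu
    exact cons_notMem_anc n v
  have h := hi.indepFun_finset (anc v) T hdisj hm
  let G : (anc v → ℝ) → ℝ := fun c => ∏ i : anc v, c i
  let H : (T → ℝ) → ℝ := fun c => ∑ n ∈ A.attach,
    ψ n (c ⟨n.1 :: v, Finset.mem_image_of_mem (· :: v) n.2⟩)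
  have hG : Measurable G := Finset.measurable_prod _ fun i _ => measurable_pi_apply i
  have hH : Measurable H := Finset.measurable_sum _ fun n _ => (hψ n).comp (measurable_pi_apply _)
  have h2 := h.comp hG hH
  convert h2 using 1
  · ext z
    simp only [Function.comp, G]
    rw [pathProduct_eq, Finset.prod_coe_sort (anc v) (fun u => W u z)]
  · ext z
    simp only [Function.comp, H]
    rw [Finset.sum_attach A (fun n => ψ n (W (n :: v) z))]

theorem integral_comp_W (hW : IsRealization ν μ W) {v : List ℕ} (hv : v ≠ []) (ψ : ℝ → ℝ)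
    (hψ : Measurable ψ) : ∫ z, ψ (W v z) ∂μ = ∫ x, ψ x ∂ν := by
  rw [← hW.2.2 v hv, integral_map (hW.1 v).aemeasurable hψ.aestronglyMeasurable]

theorem memLp_W (hW : IsRealization ν μ W) (hm2 : Integrable (fun x : ℝ => x ^ 2) ν)
    {v : List ℕ} (hv : v ≠ []) : MemLp (W v) 2 μ := by
  rw [memLp_two_iff_integrable_sq (hW.1 v).aestronglyMeasurable]
  rw [← hW.2.2 v hv] at hm2
  exact (integrable_map_measure (by fun_prop) (hW.1 v).aemeasurable).mp hm2

theorem integrable_pathProduct [IsProbabilityMeasure μ] (hW : IsRealization ν μ W)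
    (hm2 : Integrable (fun x : ℝ => x ^ 2) ν) :
    ∀ v : List ℕ, Integrable (pathProduct W v) μ
  | [] => integrable_const _
  | a :: v => by
    have h := indep_children hW.1 hW.2.1 v {a} (fun _ x => x) (fun _ => measurable_id)
    simp only [Finset.sum_singleton] at h
    exact h.integrable_mul (integrable_pathProduct hW hm2 v)
      ((memLp_W hW hm2 (List.cons_ne_nil a v)).integrable one_le_two)

theorem integral_abs_mul (hW : IsRealization ν μ W) (v : List ℕ)
    (A : Finset ℕ) (ψ : ℕ → ℝ → ℝ) (hψ : ∀ n, Measurable (ψ n)) :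
    ∫ z, |pathProduct W v z * ∑ n ∈ A, ψ n (W (n :: v) z)| ∂μ =
      (∫ z, |pathProduct W v z| ∂μ) * ∫ z, |∑ n ∈ A, ψ n (W (n :: v) z)| ∂μ := by
  have h := (indep_children hW.1 hW.2.1 v A ψ hψ).comp measurable_abs measurable_abs
  have hm1 : Measurable (pathProduct W v) := measurable_pathProduct hW.1 v
  have hm2 : Measurable (fun z => ∑ n ∈ A, ψ n (W (n :: v) z)) :=
    Finset.measurable_sum _ fun n _ => (hψ n).comp (hW.1 _)
  have := h.integral_fun_mul_eq_mul_integral hm1.abs.aestronglyMeasurable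
    hm2.abs.aestronglyMeasurable
  simp only [Function.comp] at this
  simp only [abs_mul]
  exact this

theorem integral_abs_pathProduct [IsProbabilityMeasure μ] (hW : IsRealization ν μ W)
    (h1 : ∫ x, |x| ∂ν = 1) : ∀ v : List ℕ, ∫ z, |pathProduct W v z| ∂μ = 1
  | [] => by simp [pathProduct]
  | a :: v => by
    have h := integral_abs_mul hW v {a} (fun _ x => x) (fun _ => measurable_id)
    simp only [Finset.sum_singleton] at h
    simp only [pathProduct]
    rw [h, integral_abs_pathProduct hW h1 v, one_mul,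
      integral_comp_W hW (List.cons_ne_nil a v) (fun x => |x|) measurable_abs, h1]

theorem integral_abs_sum_le [IsProbabilityMeasure μ] (hW : IsRealization ν μ W)
    (hmean : ∫ x, x ∂ν = 1) (hm2 : Integrable (fun x : ℝ => x ^ 2) ν) (v : List ℕ)
    (A : Finset ℕ) (a : ℕ → ℝ) :
    ∫ z, |∑ n ∈ A, a n * (W (n :: v) z - 1)| ∂μ ≤ √(∫ x, x ^ 2 ∂ν) * √(∑ n ∈ A, a n ^ 2) := by
  set Y : ℕ → Ω → ℝ := fun n z => a n * (W (n :: v) z - 1) with hY
  have hYm : ∀ n, Measurable (Y n) := fun n => ((hW.1 _).sub_const 1).const_mul _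
  have hY2 : ∀ n, MemLp (Y n) 2 μ := fun n =>
    ((memLp_W hW hm2 (List.cons_ne_nil n v)).sub (memLp_const 1)).const_mul _
  have hY0 : ∀ n, ∫ z, Y n z ∂μ = 0 := by
    intro n
    simp only [hY]
    rw [integral_const_mul, integral_sub ((memLp_W hW hm2 (List.cons_ne_nil n v)).integrable
      one_le_two) (integrable_const _),
      integral_comp_W hW (List.cons_ne_nil n v) (fun x => x) measurable_id, hmean]
    simp
  have hYv : ∀ n, Var[Y n; μ] ≤ a n ^ 2 * ∫ x, x ^ 2 ∂ν := by
    intro n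
    simp only [hY]
    rw [variance_const_mul, variance_sub_const (hW.1 _).aestronglyMeasurable]
    gcongr
    refine (variance_le_expectation_sq (hW.1 _).aestronglyMeasurable).trans (le_of_eq ?_)
    exact integral_comp_W hW (List.cons_ne_nil n v) (fun x => x ^ 2) (by fun_prop)
  have hind : Set.Pairwise (A : Set ℕ) fun i j => IndepFun (Y i) (Y j) μ := by
    intro i _ j _ hij
    have h := hW.2.1.indepFun (i := i :: v) (j := j :: v) (by simpa using hij)
    exact h.comp (φ := fun x => a i * (x - 1)) (ψ := fun x => a j * (x - 1)) (by fun_prop)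
      (by fun_prop)
  have hvar := IndepFun.variance_sum (fun i _ => hY2 i) hind
  set Z : Ω → ℝ := ∑ i ∈ A, Y i with hZ
  have hZ' : ∀ z, Z z = ∑ n ∈ A, a n * (W (n :: v) z - 1) := by
    intro z; simp [hZ, hY]
  have hZ2 : MemLp Z 2 μ := memLp_finsetSum' _ fun i _ => hY2 i
  have hZ0 : μ[Z] = 0 := by
    have : Z = fun z => ∑ n ∈ A, Y n z := by ext z; simp [hZ]
    rw [this, integral_finsetSum _ fun i _ => (hY2 i).integrable one_le_two]
    simp [hY0]
  have h1 : ∫ z, Z z ^ 2 ∂μ ≤ (∫ x, x ^ 2 ∂ν) * ∑ n ∈ A, a n ^ 2 := by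
    rw [← variance_of_integral_eq_zero hZ2.aemeasurable hZ0, hvar, mul_comm, Finset.sum_mul]
    exact Finset.sum_le_sum fun n _ => hYv n
  have h2 : (∫ z, |Z z| ∂μ) ^ 2 ≤ ∫ z, Z z ^ 2 ∂μ := by
    have h3 := variance_eq_sub hZ2.abs
    have h4 := variance_nonneg |Z| μ
    have h5 : ∫ z, (|Z| ^ 2) z ∂μ = ∫ z, Z z ^ 2 ∂μ := by
      refine integral_congr_ae (ae_of_all _ fun z => ?_)
      simp
    have h6 : ∫ z, |Z| z ∂μ = ∫ z, |Z z| ∂μ := rfl
    rw [h5, h6] at h3
    linarith
  simp only [← hZ']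
  rw [← Real.sqrt_mul (integral_nonneg fun x => sq_nonneg x)]
  exact Real.le_sqrt_of_sq_le (h2.trans h1)

/-- the path product as an element of the product span -/
noncomputable def prodVec [IsProbabilityMeasure μ] (hW : IsRealization ν μ W)
    (hm2 : Integrable (fun x : ℝ => x ^ 2) ν) (v : List ℕ) : productSpan μ W :=
  ⟨(integrable_pathProduct hW hm2 v).toL1 _, Submodule.le_topologicalClosure _
    (Submodule.subset_span ⟨v, Integrable.coeFn_toL1 _⟩)⟩

theorem prodVec_coe [IsProbabilityMeasure μ] (hW : IsRealization ν μ W)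
    (hm2 : Integrable (fun x : ℝ => x ^ 2) ν) (v : List ℕ) :
    ((prodVec hW hm2 v : Lp ℝ 1 μ) : Ω → ℝ) =ᵐ[μ] pathProduct W v :=
  Integrable.coeFn_toL1 (integrable_pathProduct hW hm2 v)

theorem norm_sum_incr [IsProbabilityMeasure μ] (hW : IsRealization ν μ W)
    (hm2 : Integrable (fun x : ℝ => x ^ 2) ν) (h1 : ∫ x, |x| ∂ν = 1) (v : List ℕ)
    (A : Finset ℕ) (a : ℕ → ℝ) :
    ‖∑ n ∈ A, a n • (prodVec hW hm2 (n :: v) - prodVec hW hm2 v)‖ =
      ∫ z, |∑ n ∈ A, a n * (W (n :: v) z - 1)| ∂μ := by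
  classical
  have key : ((↑(∑ n ∈ A, a n • (prodVec hW hm2 (n :: v) - prodVec hW hm2 v)) : Lp ℝ 1 μ) : Ω → ℝ)
      =ᵐ[μ] fun z => pathProduct W v z * ∑ n ∈ A, a n * (W (n :: v) z - 1) := by
    induction A using Finset.induction_on with
    | empty =>
      simp only [Finset.sum_empty, mul_zero]
      exact Lp.coeFn_zero _ _ _
    | insert n A hn ih =>
      rw [Finset.sum_insert hn]
      simp only [Submodule.coe_add, Submodule.coe_smul, Submodule.coe_sub]
      filter_upwards [ih, Lp.coeFn_add (a n • ((prodVec hW hm2 (n :: v) : Lp ℝ 1 μ) -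
          (prodVec hW hm2 v : Lp ℝ 1 μ)))
          (↑(∑ n ∈ A, a n • (prodVec hW hm2 (n :: v) - prodVec hW hm2 v)) : Lp ℝ 1 μ),
        Lp.coeFn_smul (a n) ((prodVec hW hm2 (n :: v) : Lp ℝ 1 μ) - (prodVec hW hm2 v : Lp ℝ 1 μ)),
        Lp.coeFn_sub (prodVec hW hm2 (n :: v) : Lp ℝ 1 μ) (prodVec hW hm2 v : Lp ℝ 1 μ),
        prodVec_coe hW hm2 (n :: v), prodVec_coe hW hm2 v] with z e1 e2 e3 e4 e5 e6
      rw [e2, Pi.add_apply, e1, e3, Pi.smul_apply, e4, Pi.sub_apply, e5, e6, Finset.sum_insert hn]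
      simp only [pathProduct, smul_eq_mul]
      ring
  rw [Submodule.coe_norm, L1.norm_eq_integral_norm]
  have := integral_abs_mul hW v A (fun n x => a n * (x - 1)) (fun n => by fun_prop)
  rw [integral_abs_pathProduct hW h1, one_mul] at this
  rw [← this]
  refine integral_congr_ae ?_
  filter_upwards [key] with z hz
  rw [hz, Real.norm_eq_abs]

theorem norm_prodVec [IsProbabilityMeasure μ] (hW : IsRealization ν μ W)
    (hm2 : Integrable (fun x : ℝ => x ^ 2) ν) (h1 : ∫ x, |x| ∂ν = 1) (v : List ℕ) :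
    ‖prodVec hW hm2 v‖ = 1 := by
  rw [Submodule.coe_norm, L1.norm_eq_integral_norm, ← integral_abs_pathProduct hW h1 v]
  refine integral_congr_ae ?_
  filter_upwards [prodVec_coe hW hm2 v] with z hz
  rw [hz, Real.norm_eq_abs]

theorem norm_incr [IsProbabilityMeasure μ] (hW : IsRealization ν μ W)
    (hm2 : Integrable (fun x : ℝ => x ^ 2) ν) (h1 : ∫ x, |x| ∂ν = 1) (v : List ℕ) (n : ℕ) :
    ‖prodVec hW hm2 (n :: v) - prodVec hW hm2 v‖ = ∫ x, |x - 1| ∂ν := by
  have := norm_sum_incr hW hm2 h1 v {n} (fun _ => 1)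
  simp only [Finset.sum_singleton, one_smul, one_mul] at this
  rw [this, integral_comp_W hW (List.cons_ne_nil n v) (fun x => |x - 1|) (by fun_prop)]

theorem integral_abs_eq_one [IsProbabilityMeasure ν] (hpos : ν (Set.Ioi 0) = 1)
    (hmean : ∫ x, x ∂ν = 1) : ∫ x, |x| ∂ν = 1 := by
  rw [← hmean]
  refine integral_congr_ae ?_
  have : ∀ᵐ x ∂ν, x ∈ Set.Ioi (0 : ℝ) := by
    rw [ae_iff]
    exact (prob_compl_eq_zero_iff measurableSet_Ioi).mpr hpos
  filter_upwards [this] with x hx
  exact abs_of_pos hx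

theorem integral_abs_sub_one_pos [IsProbabilityMeasure ν] (hnc : ∀ c : ℝ, ν ≠ Measure.dirac c)
    (hm2 : Integrable (fun x : ℝ => x ^ 2) ν) : 0 < ∫ x, |x - 1| ∂ν := by
  have hid : Integrable (fun x : ℝ => x) ν :=
    ((memLp_two_iff_integrable_sq (f := fun x : ℝ => x) (by fun_prop)).mpr hm2).integrable
      one_le_two
  have hint : Integrable (fun x : ℝ => |x - 1|) ν := (hid.sub (integrable_const 1)).abs
  refine lt_of_le_of_ne (integral_nonneg fun x => abs_nonneg _) fun h => hnc 1 ?_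
  have h2 := (integral_eq_zero_iff_of_nonneg (fun x => abs_nonneg _) hint).mp h.symm
  have h3 : (fun x : ℝ => x) =ᵐ[ν] fun _ => (1 : ℝ) := by
    filter_upwards [h2] with x hx
    simp only [Pi.zero_apply, abs_eq_zero] at hx
    linarith
  calc ν = ν.map (fun x => x) := by simp
    _ = ν.map (fun _ => (1 : ℝ)) := Measure.map_congr h3
    _ = Measure.dirac 1 := by simp

end Crest.Agent.R125
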